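import Mathlib.FieldTheory.Finite.Basic
import Mathlib.NumberTheory.LegendreSymbol.QuadraticChar.Basic
import Vale.Agent.P240.R2.H487.DO1

/-!
Half tori over the quadratic extension, `q = 3` modulo `4`.
-/

set_option linter.all false

namespace Vale.Agent.P240.R2.H979

open Matrix Subgroup Vale.Agent.P240.K Vale.Agent.P240.H195 Vale.Agent.P240.R2.H487

section
variable {F K : Type*} [Field F] [Field K] {a m : ℕ}

/-- the half torus of `SL(F)` in the conjugate of the torus of `K` -/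
def mxT (φ : F →+* K) (i0 : K) (σ : Fin (m + 1) ≃ Vv a) (b : Ww a) (Z : GLm m K) : Set Kˣ :=
  {la | ∃ V : SLm m F, ∃ d : K, V.1.map φ * Z.1 = d • (Z.1 * HM i0 σ b la)}

variable {φ : F →+* K} {i0 : K} {σ : Fin (m + 1) ≃ Vv a} {b : Ww a} {Z : GLm m K} {X : SLm m F}
  {c : K}

lemma z_cancel {A B : Matrix (Fin (m + 1)) (Fin (m + 1)) K} (h : A * Z.1 = B * Z.1) : A = B := by
  have h1 := congrArg (· * (Z⁻¹).1) h
  simp only [Matrix.mul_assoc] at h1
  have h2 : Z.1 * (Z⁻¹).1 = 1 := by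
    have := congrArg Units.val (mul_inv_cancel Z)
    rwa [Units.val_mul, Units.val_one] at this
  rwa [h2, Matrix.mul_one, Matrix.mul_one] at h1

lemma z_ne : Z.1 ≠ 0 := by
  intro h
  have h2 : Z.1 * (Z⁻¹).1 = 1 := by
    have := congrArg Units.val (mul_inv_cancel Z)
    rwa [Units.val_mul, Units.val_one] at this
  rw [h, Matrix.zero_mul] at h2
  exact zero_ne_one h2

lemma sl_map_ne (V : SLm m F) : V.1.map φ * Z.1 ≠ 0 := by
  intro h
  have h1 : V.1.map φ = 0 := z_cancel (Z := Z) (by rw [h, Matrix.zero_mul])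
  have h2 : (V.1.map φ).det = 1 := by
    have : (V.1.map φ).det = φ V.1.det := (RingHom.map_det φ _).symm
    rw [this, V.2, map_one]
  rw [h1, Matrix.det_zero] at h2
  exact zero_ne_one h2

lemma c_ne (hX : X.1.map φ * Z.1 = c • (Z.1 * PP i0 σ b)) : c ≠ 0 := by
  rintro rfl
  rw [zero_smul] at hX
  exact sl_map_ne X hX

/-- the square of `c` -/
lemma c_sq {i0 : K} (hi : i0 * i0 = -1) (hX : X.1.map φ * Z.1 = c • (Z.1 * PP i0 σ b)) :
    c ^ 2 = φ ((X.1 * X.1) 0 0) := by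
  have h1 : (X.1 * X.1).map φ = (c ^ 2) • (1 : Matrix (Fin (m + 1)) (Fin (m + 1)) K) := by
    refine z_cancel (Z := Z) ?_
    rw [Matrix.map_mul, Matrix.mul_assoc, hX, Matrix.mul_smul, ← Matrix.mul_assoc, hX,
      Matrix.smul_mul, Matrix.mul_assoc, PP_sq hi, Matrix.mul_one, smul_smul, Matrix.smul_mul,
      Matrix.one_mul, pow_two]
  have h2 := congrFun (congrFun h1 0) 0
  rw [Matrix.map_apply, Matrix.smul_apply, Matrix.one_apply_eq, smul_eq_mul, mul_one] at h2
  exact h2.symm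

/-- the one is there -/
lemma one_mem_mxT (h2 : (2 : K) ≠ 0) : (1 : Kˣ) ∈ mxT φ i0 σ b Z := by
  refine ⟨1, 1, ?_⟩
  rw [HM_one h2, Matrix.mul_one, one_smul]
  have h1 : (1 : SLm m F).1.map φ = 1 := by
    change (1 : Matrix (Fin (m + 1)) (Fin (m + 1)) F).map φ = 1
    rw [Matrix.map_one _ (map_zero φ) (map_one φ)]
  rw [h1, Matrix.one_mul]

/-- the basic elements -/
lemma basic_mem (h2 : (2 : K) ≠ 0) {i0 : K} (hi : i0 * i0 = -1) (hb : b ≠ 0)
    (hm : 4 ∣ m + 1) (hX : X.1.map φ * Z.1 = c • (Z.1 * PP i0 σ b)) {α t : F} {μ : Kˣ} {s : K}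
    (hs : s ^ 2 = φ α ^ 2 - c ^ 2) (hs0 : s ≠ 0) (hμ : (μ : K) * s = φ α - c)
    (ht : φ t ^ 4 = s ^ 4) : μ ^ 2 ∈ mxT φ i0 σ b Z := by
  have hμ0 : (μ : K) ≠ 0 := μ.ne_zero
  have h4 : φ α - c ≠ 0 := by
    rw [← hμ]
    exact mul_ne_zero hμ0 hs0
  have hμ' : ((μ⁻¹ : Kˣ) : K) * s = φ α + c := by
    have h5 : (μ : K) * (((μ⁻¹ : Kˣ) : K) * s) = (μ : K) * (φ α + c) := by
      rw [← mul_assoc, Units.mul_inv, one_mul]
      apply mul_right_cancel₀ hs0
      rw [mul_right_comm, hμ, ← pow_two, hs]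
      ring
    exact mul_left_cancel₀ hμ0 h5
  have hc : s * cc μ = φ α := by
    rw [cc, mul_div_assoc', div_eq_iff h2, mul_add, mul_comm s, mul_comm s, hμ, hμ']
    ring
  have hsn : s * ss μ = c := by
    rw [ss, mul_div_assoc', div_eq_iff h2, mul_sub, mul_comm s, mul_comm s, hμ, hμ']
    ring
  have hA : (α • (1 : Matrix (Fin (m + 1)) (Fin (m + 1)) F) + X.1).map φ * Z.1 =
      s • (Z.1 * TM i0 σ b μ) := by
    have h6 : (α • (1 : Matrix (Fin (m + 1)) (Fin (m + 1)) F) + X.1).map φ =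
        φ α • (1 : Matrix (Fin (m + 1)) (Fin (m + 1)) K) + X.1.map φ := by
      ext i j
      simp only [Matrix.map_apply, Matrix.add_apply, Matrix.smul_apply, smul_eq_mul, map_add,
        map_mul, Matrix.one_apply]
      split_ifs
      · rw [map_one]
      · rw [map_zero]
    rw [h6, Matrix.add_mul, Matrix.smul_mul, Matrix.one_mul, hX, TM, Matrix.mul_add,
      Matrix.mul_smul, Matrix.mul_smul, Matrix.mul_one, smul_add, smul_smul, smul_smul, hc, hsn]
  have hdet : φ (α • (1 : Matrix (Fin (m + 1)) (Fin (m + 1)) F) + X.1).det = s ^ (m + 1) := by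
    have h7 := congrArg Matrix.det hA
    rw [Matrix.det_mul, Matrix.det_smul, Matrix.det_mul, TM_det h2 hi σ hb, mul_one,
      Fintype.card_fin] at h7
    have h8 : Z.1.det ≠ 0 := by
      have h9 : Z.1 * (Z⁻¹).1 = 1 := by
        have := congrArg Units.val (mul_inv_cancel Z)
        rwa [Units.val_mul, Units.val_one] at this
      intro h10
      have h11 := congrArg Matrix.det h9
      rw [Matrix.det_mul, h10, zero_mul, Matrix.det_one] at h11
      exact zero_ne_one h11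
    have h9 := mul_right_cancel₀ h8 h7
    rw [← h9]
    exact RingHom.map_det φ _
  have ht0 : t ≠ 0 := by
    rintro rfl
    rw [map_zero, zero_pow (by norm_num)] at ht
    exact pow_ne_zero 4 hs0 ht.symm
  have hdt : (α • (1 : Matrix (Fin (m + 1)) (Fin (m + 1)) F) + X.1).det = t ^ (m + 1) := by
    apply φ.injective
    obtain ⟨k, hk⟩ := hm
    rw [hdet, map_pow, hk, pow_mul, pow_mul, ht]
  refine ⟨⟨t⁻¹ • (α • (1 : Matrix (Fin (m + 1)) (Fin (m + 1)) F) + X.1), ?_⟩,
    (φ t)⁻¹ * s * (μ : K)⁻¹, ?_⟩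
  · rw [Matrix.det_smul, Fintype.card_fin, hdt, ← mul_pow, inv_mul_cancel₀ ht0, one_pow]
  · have h12 : (t⁻¹ • (α • (1 : Matrix (Fin (m + 1)) (Fin (m + 1)) F) + X.1)).map φ =
        (φ t)⁻¹ • (α • (1 : Matrix (Fin (m + 1)) (Fin (m + 1)) F) + X.1).map φ := by
      ext i j
      simp only [Matrix.map_apply, Matrix.smul_apply, smul_eq_mul, map_mul, map_inv₀]
    change (t⁻¹ • (α • (1 : Matrix (Fin (m + 1)) (Fin (m + 1)) F) + X.1)).map φ * Z.1 = _
    rw [h12, Matrix.smul_mul, hA, HM_sq h2, Matrix.mul_smul, smul_smul, smul_smul]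
    congr 1
    field_simp

/-- roots -/
lemma exists_rt [Finite F] (hq : Nat.card F % 4 = 3) (u : F) : ∃ t : F, t ^ 2 = u ∨ t ^ 2 = -u := by
  have := Fintype.ofFinite F
  rw [Nat.card_eq_fintype_card] at hq
  by_cases hu : IsSquare u
  · obtain ⟨t, ht⟩ := hu
    exact ⟨t, Or.inl (by rw [ht, pow_two])⟩
  · have hn : ¬ IsSquare (-1 : F) := by
      rw [FiniteField.isSquare_neg_one_iff]
      simpa using hq
    have hc : ringChar F ≠ 2 := by
      intro h
      have := FiniteField.even_card_of_char_two h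
      omega
    classical
    have h1 : quadraticChar F (-u) = 1 := by
      rw [neg_eq_neg_one_mul, map_mul, quadraticChar_neg_one_iff_not_isSquare.2 hu,
        quadraticChar_neg_one_iff_not_isSquare.2 hn]
      norm_num
    have hu0 : -u ≠ 0 := by
      intro h
      rw [neg_eq_zero.1 h] at hu
      exact hu ⟨0, by rw [mul_zero]⟩
    obtain ⟨t, ht⟩ := (quadraticChar_one_iff_isSquare hu0).1 h1
    exact ⟨t, Or.inr (by rw [ht, pow_two])⟩

lemma two_ne' [Finite F] (hq : Nat.card F % 4 = 3) : (2 : F) ≠ 0 := by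
  have := Fintype.ofFinite F
  rw [Nat.card_eq_fintype_card] at hq
  apply Ring.two_ne_zero
  intro h
  have := FiniteField.even_card_of_char_two h
  omega

lemma two_neK [Finite F] (hq : Nat.card F % 4 = 3) (φ : F →+* K) : (2 : K) ≠ 0 := by
  intro h
  apply two_ne' hq
  apply φ.injective
  rw [map_ofNat, map_zero, h]

/-- basic elements exist -/
lemma exists_basic [Finite F] (hq : Nat.card F % 4 = 3) {i0 : K} (hi : i0 * i0 = -1) (hb : b ≠ 0)
    (hm : 4 ∣ m + 1) (hX : X.1.map φ * Z.1 = c • (Z.1 * PP i0 σ b)) {α : F}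
    (hα : φ α ^ 2 ≠ c ^ 2) : ∃ μ : Kˣ, μ ^ 2 ∈ mxT φ i0 σ b Z ∧
      (μ : K) ^ 2 * (φ α + c) = φ α - c := by
  have h2 := two_neK hq φ
  obtain ⟨δ, hδ⟩ : ∃ δ : F, c ^ 2 = φ δ := ⟨_, c_sq hi hX⟩
  obtain ⟨t, ht⟩ := exists_rt hq (α ^ 2 - δ)
  have hu : φ (α ^ 2 - δ) = φ α ^ 2 - c ^ 2 := by rw [map_sub, map_pow, hδ]
  obtain ⟨s, hs, hts⟩ : ∃ s : K, s ^ 2 = φ α ^ 2 - c ^ 2 ∧ φ t ^ 4 = s ^ 4 := by
    rcases ht with ht | ht
    · refine ⟨φ t, ?_, rfl⟩
      rw [← map_pow, ht, hu]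
    · refine ⟨i0 * φ t, ?_, ?_⟩
      · rw [mul_pow, pow_two i0, hi, ← map_pow, ht, map_neg, hu]
        ring
      · have h3 : i0 ^ 4 = 1 := by
          rw [show i0 ^ 4 = (i0 * i0) * (i0 * i0) by ring, hi]
          ring
        rw [mul_pow, h3, one_mul]
  have hs0 : s ≠ 0 := by
    rintro rfl
    rw [zero_pow (by norm_num)] at hs
    exact hα (sub_eq_zero.1 hs.symm)
  have hne : φ α - c ≠ 0 := by
    intro h
    exact hα (by rw [sub_eq_zero.1 h])
  refine ⟨Units.mk0 ((φ α - c) / s) (div_ne_zero hne hs0), ?_, ?_⟩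
  · refine basic_mem h2 hi hb hm hX (α := α) (t := t) hs hs0 ?_ hts
    rw [Units.val_mk0, div_mul_cancel₀ _ hs0]
  · rw [Units.val_mk0, div_pow, hs, div_mul_eq_mul_div, div_eq_iff (sub_ne_zero.2 hα)]
    ring

/-- the good parameters -/
abbrev Gd (φ : F →+* K) (c : K) : Type _ := {α : F // φ α ^ 2 ≠ c ^ 2}

lemma gd_card [Finite F] (φ : F →+* K) (c : K) : Nat.card F ≤ Nat.card (Gd φ c) + 2 := by
  have h1 := Set.ncard_add_ncard_compl {α : F | φ α ^ 2 = c ^ 2}
  have h2 : Nat.card (Gd φ c) = ({α : F | φ α ^ 2 = c ^ 2}ᶜ).ncard := by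
    rw [← Nat.card_coe_set_eq]
    rfl
  have h3 : {α : F | φ α ^ 2 = c ^ 2}.ncard ≤ 2 := by
    have h4 : {α : F | φ α ^ 2 = c ^ 2}.ncard ≤ ({c, -c} : Set K).ncard := by
      refine Set.ncard_le_ncard_of_injOn φ ?_ (φ.injective.injOn) (Set.toFinite _)
      intro α hα
      rcases sq_eq_sq_iff_eq_or_eq_neg.1 hα with h | h
      · exact Or.inl h
      · exact Or.inr h
    refine le_trans h4 (le_trans (Set.ncard_insert_le _ _) ?_)
    rw [Set.ncard_singleton]
  omega

lemma gd_card' [Finite F] (φ : F →+* K) {c : K} (hc : ∀ α, φ α ≠ c) :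
    Nat.card (Gd φ c) = Nat.card F := by
  refine Nat.card_congr ⟨fun α => α.1, fun α => ⟨α, ?_⟩, fun _ => rfl, fun _ => rfl⟩
  intro h
  rcases sq_eq_sq_iff_eq_or_eq_neg.1 h with h | h
  · exact hc α h
  · exact hc (-α) (by rw [map_neg, h, neg_neg])

/-- the family of roots -/
lemma exists_family [Finite F] (hq : Nat.card F % 4 = 3) {i0 : K} (hi : i0 * i0 = -1) (hb : b ≠ 0)
    (hm : 4 ∣ m + 1) (hX : X.1.map φ * Z.1 = c • (Z.1 * PP i0 σ b)) :
    ∃ f : Option (Gd φ c) → Kˣ, (∀ o, f o ^ 2 ∈ mxT φ i0 σ b Z) ∧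
      Function.Injective (fun o => f o ^ 2) := by
  have h2 := two_neK hq φ
  have hc := c_ne hX
  choose μ hμ1 hμ2 using fun α : Gd φ c => exists_basic hq hi hb hm hX α.2
  have hne1 : ∀ α, μ α ^ 2 ≠ 1 := by
    intro α h
    have h3 := hμ2 α
    have h4 : (μ α : K) ^ 2 = 1 := by
      rw [← Units.val_pow_eq_pow_val, h, Units.val_one]
    rw [h4, one_mul] at h3
    have h5 : 2 * c = 0 := by linear_combination h3
    rcases mul_eq_zero.1 h5 with h6 | h6
    · exact h2 h6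
    · exact hc h6
  refine ⟨fun o => o.elim 1 μ, ?_, ?_⟩
  · intro o
    cases o with
    | none =>
      change (1 : Kˣ) ^ 2 ∈ _
      rw [one_pow]
      exact one_mem_mxT h2
    | some α => exact hμ1 α
  · intro o o' h
    cases o with
    | none =>
      cases o' with
      | none => rfl
      | some β =>
        change (1 : Kˣ) ^ 2 = μ β ^ 2 at h
        rw [one_pow] at h
        exact absurd h.symm (hne1 β)
    | some α =>
      cases o' with
      | none =>
        change μ α ^ 2 = (1 : Kˣ) ^ 2 at h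
        rw [one_pow] at h
        exact absurd h (hne1 α)
      | some β =>
        change μ α ^ 2 = μ β ^ 2 at h
        have h3 : (μ α : K) ^ 2 = (μ β : K) ^ 2 := by
          rw [← Units.val_pow_eq_pow_val, h, Units.val_pow_eq_pow_val]
        have h4 := hμ2 α
        have h5 := hμ2 β
        rw [← h3] at h5
        have h6 : ((μ α : K) ^ 2 - 1) * (φ α.1 - φ β.1) = 0 := by linear_combination h4 - h5
        rcases mul_eq_zero.1 h6 with h7 | h7
        · exfalso
          apply hne1 α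
          apply Units.ext
          rw [Units.val_pow_eq_pow_val, Units.val_one]
          exact sub_eq_zero.1 h7
        · congr 1
          exact Subtype.ext (φ.injective (sub_eq_zero.1 h7))

variable [Finite F] [Finite K]

lemma T_card (hq : Nat.card F % 4 = 3) {i0 : K} (hi : i0 * i0 = -1) (hb : b ≠ 0)
    (hm : 4 ∣ m + 1) (hX : X.1.map φ * Z.1 = c • (Z.1 * PP i0 σ b)) :
    Nat.card (Gd φ c) + 1 ≤ Nat.card (mxT φ i0 σ b Z) := by
  obtain ⟨f, hf1, hf2⟩ := exists_family hq hi hb hm hX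
  have h1 := Nat.card_le_card_of_injective
    (fun o => (⟨f o ^ 2, hf1 o⟩ : mxT φ i0 σ b Z)) (fun o o' h => hf2 (congrArg Subtype.val h))
  rwa [Finite.card_option] at h1

lemma T_card2 (hq : Nat.card F % 4 = 3) {i0 : K} (hi : i0 * i0 = -1) (hb : b ≠ 0)
    (hm : 4 ∣ m + 1) (hX : X.1.map φ * Z.1 = c • (Z.1 * PP i0 σ b)) :
    (Nat.card (Gd φ c) + 1) * 2 ≤ Nat.card {la : Kˣ // la ^ 2 ∈ mxT φ i0 σ b Z} := by
  obtain ⟨f, hf1, hf2⟩ := exists_family hq hi hb hm hX
  have h2 := two_neK hq φ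
  have h1 := Nat.card_le_card_of_injective
    (fun o : Option (Gd φ c) × Bool =>
      (⟨if o.2 then f o.1 else -f o.1, by
        split_ifs
        · exact hf1 _
        · rw [neg_sq]; exact hf1 _⟩ : {la : Kˣ // la ^ 2 ∈ mxT φ i0 σ b Z})) (by
      rintro ⟨o, e⟩ ⟨o', e'⟩ h
      have h3 : (if e then f o else -f o) = (if e' then f o' else -f o') :=
        congrArg Subtype.val h
      have h4 : f o ^ 2 = f o' ^ 2 := by
        cases e <;> cases e'
        · have h5 : -f o = -f o' := by simpa using h3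
          rw [neg_injective h5]
        · have h5 : -f o = f o' := by simpa using h3
          rw [← h5, neg_sq]
        · have h5 : f o = -f o' := by simpa using h3
          rw [h5, neg_sq]
        · have h5 : f o = f o' := by simpa using h3
          rw [h5]
      have h5 := hf2 h4
      subst h5
      have hne : f o ≠ -f o := by
        intro h6
        have h7 := congrArg Units.val h6
        rw [Units.val_neg] at h7
        have h8 : (2 : K) * (f o : K) = 0 := by linear_combination h7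
        rcases mul_eq_zero.1 h8 with h9 | h9
        · exact h2 h9
        · exact (f o).ne_zero h9
      cases e <;> cases e'
      · rfl
      · exact absurd (by simpa using h3) hne.symm
      · exact absurd (by simpa using h3) hne
      · rfl)
  rwa [Nat.card_prod, Finite.card_option, Nat.card_eq_fintype_card (α := Bool),
    Fintype.card_bool] at h1

/-- **(i)** -/
theorem mx_i (hq : Nat.card F % 4 = 3) (hq7 : 7 ≤ Nat.card F) {i0 : K} (hi : i0 * i0 = -1)
    (hb : b ≠ 0) (hm : 4 ∣ m + 1) (hX : X.1.map φ * Z.1 = c • (Z.1 * PP i0 σ b)) :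
    12 ≤ Nat.card {la : Kˣ // la ^ 2 ∈ mxT φ i0 σ b Z} := by
  have h1 := T_card2 hq hi hb hm hX
  have h2 := gd_card φ c
  omega

omit [Finite F] [Finite K] in
/-- `PP` is not scalar -/
lemma PP_not_scalar (h2 : (2 : K) ≠ 0) {i0 : K} (hi : i0 * i0 = -1) (hb : b ≠ 0) (d : K) :
    PP i0 σ b ≠ d • (1 : Matrix (Fin (m + 1)) (Fin (m + 1)) K) := by
  intro h
  obtain ⟨v, hv⟩ := exists_wf_one hb
  have h1 : PM K σ v * PP i0 σ b = s2 K 1 • (PP i0 σ b * PM K σ v) := by
    rw [PM_PP_comm, hv]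
  have h3 : d * d = 1 := by
    have h4 := PP_sq hi σ b
    rw [h, Matrix.smul_mul, Matrix.one_mul, smul_smul] at h4
    have h5 := congrFun (congrFun h4 0) 0
    rwa [Matrix.smul_apply, Matrix.one_apply_eq, smul_eq_mul, mul_one] at h5
  rw [h, Matrix.mul_smul, Matrix.smul_mul, Matrix.one_mul, Matrix.mul_one, s2_one] at h1
  have h4 : (2 * d) • PM K σ v = 0 := by
    have h5 : d • PM K σ v + d • PM K σ v = 0 := by
      nth_rewrite 1 [h1]
      rw [neg_smul, one_smul, neg_add_cancel]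
    rw [two_mul, add_smul, h5]
  rcases smul_eq_zero.1 h4 with h5 | h5
  · rcases mul_eq_zero.1 h5 with h6 | h6
    · exact h2 h6
    · rw [h6, mul_zero] at h3
      exact zero_ne_one h3
  · have h6 := PM_sq (F := K) σ v
    rw [h5, Matrix.zero_mul] at h6
    have h7 := congrFun (congrFun h6 0) 0
    rw [Matrix.zero_apply, Matrix.smul_apply, Matrix.one_apply_eq, smul_eq_mul, mul_one] at h7
    exact s2_ne K _ h7.symm

omit [Finite F] [Finite K] in
/-- descent of coefficients -/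
lemma coef_descent {V X : Matrix (Fin (m + 1)) (Fin (m + 1)) F} {x y : K}
    (h : V.map φ = x • (1 : Matrix (Fin (m + 1)) (Fin (m + 1)) K) + y • X.map φ)
    (hX : ∀ d : F, X ≠ d • (1 : Matrix (Fin (m + 1)) (Fin (m + 1)) F)) :
    (∃ x' : F, φ x' = x) ∧ ∃ y' : F, φ y' = y := by
  have he : ∀ i j, φ (V i j) = x * (if i = j then 1 else 0) + y * φ (X i j) := by
    intro i j
    have h1 := congrFun (congrFun h i) j
    rwa [Matrix.map_apply, Matrix.add_apply, Matrix.smul_apply, Matrix.smul_apply,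
      Matrix.map_apply, Matrix.one_apply, smul_eq_mul, smul_eq_mul] at h1
  have hy : ∃ y' : F, φ y' = y := by
    by_cases hoff : ∃ i j, i ≠ j ∧ X i j ≠ 0
    · obtain ⟨i, j, hij, hx⟩ := hoff
      refine ⟨V i j / X i j, ?_⟩
      have h2 := he i j
      rw [if_neg hij, mul_zero, zero_add] at h2
      rw [map_div₀, div_eq_iff ((map_ne_zero φ).2 hx), h2]
    · push Not at hoff
      by_cases hd : ∃ i, X i i ≠ X 0 0
      · obtain ⟨i, hx⟩ := hd
        refine ⟨(V i i - V 0 0) / (X i i - X 0 0), ?_⟩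
        have h2 := he i i
        have h3 := he 0 0
        rw [if_pos rfl, mul_one] at h2 h3
        rw [map_div₀, div_eq_iff ((map_ne_zero φ).2 (sub_ne_zero.2 hx)), map_sub, map_sub, h2, h3]
        ring
      · push Not at hd
        exfalso
        apply hX (X 0 0)
        ext i j
        rw [Matrix.smul_apply, Matrix.one_apply, smul_eq_mul]
        split_ifs with hij
        · rw [mul_one, ← hij]
          exact hd i
        · rw [mul_zero]
          exact hoff i j hij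
  refine ⟨?_, hy⟩
  obtain ⟨y', hy'⟩ := hy
  refine ⟨V 0 0 - y' * X 0 0, ?_⟩
  have h3 := he 0 0
  rw [if_pos rfl, mul_one] at h3
  rw [map_sub, map_mul, h3, hy']
  ring

omit [Finite K] in
/-- the elements of order `4` -/
lemma not_mem_four (hq : Nat.card F % 4 = 3) {i0 : K} (hi : i0 * i0 = -1) (hb : b ≠ 0)
    (hX : X.1.map φ * Z.1 = c • (Z.1 * PP i0 σ b)) {c0 : F} (hc : φ c0 = c) {la : Kˣ}
    (hla : (la : K) ^ 2 = -1) : la ∉ mxT φ i0 σ b Z := by
  rintro ⟨V, d, hV⟩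
  have h2 := two_neK hq φ
  have hc0 := c_ne hX
  have hd0 : d ≠ 0 := by
    rintro rfl
    rw [zero_smul] at hV
    exact sl_map_ne V hV
  have h1 : V.1.map φ = (d * ((1 + (la : K)) / 2)) • (1 : Matrix (Fin (m + 1)) (Fin (m + 1)) K) +
      (d * ((1 - (la : K)) / 2) * c⁻¹) • X.1.map φ := by
    refine z_cancel (Z := Z) ?_
    rw [hV, Matrix.add_mul, Matrix.smul_mul, Matrix.smul_mul, hX, Matrix.one_mul, HM,
      Matrix.mul_add, Matrix.mul_smul, Matrix.mul_smul, Matrix.mul_one, smul_add, smul_smul,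
      smul_smul, smul_smul, mul_assoc _ c⁻¹ c, inv_mul_cancel₀ hc0, mul_one]
  have hns : ∀ e : F, X.1 ≠ e • (1 : Matrix (Fin (m + 1)) (Fin (m + 1)) F) := by
    intro e he
    apply PP_not_scalar (σ := σ) (m := m) h2 hi hb (c⁻¹ * φ e)
    have h3 : X.1.map φ = φ e • (1 : Matrix (Fin (m + 1)) (Fin (m + 1)) K) := by
      ext i j
      rw [he, Matrix.map_apply, Matrix.smul_apply, Matrix.smul_apply, smul_eq_mul, smul_eq_mul,
        map_mul, Matrix.one_apply, Matrix.one_apply]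
      split_ifs
      · rw [map_one]
      · rw [map_zero]
    rw [h3, Matrix.smul_mul, Matrix.one_mul] at hX
    have h4 : (Z⁻¹).1 * Z.1 = 1 := by
      have := congrArg Units.val (inv_mul_cancel Z)
      rwa [Units.val_mul, Units.val_one] at this
    have h5 := congrArg ((Z⁻¹).1 * ·) hX
    simp only [Matrix.mul_smul, h4, ← Matrix.mul_assoc, Matrix.one_mul] at h5
    rw [mul_smul, h5, smul_smul, inv_mul_cancel₀ hc0, one_smul]
  obtain ⟨⟨x, hx⟩, ⟨y, hy⟩⟩ := coef_descent h1 hns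
  have h3 : φ (x + y * c0) = d := by
    rw [map_add, map_mul, hx, hy, hc]
    field_simp
    ring
  have h4 : φ (x - y * c0) = d * la := by
    rw [map_sub, map_mul, hx, hy, hc]
    field_simp
    ring
  have h5 : φ ((x - y * c0) / (x + y * c0)) = la := by
    rw [map_div₀, h3, h4, mul_div_cancel_left₀ _ hd0]
  have h6 : ((x - y * c0) / (x + y * c0)) * ((x - y * c0) / (x + y * c0)) = -1 := by
    apply φ.injective
    rw [map_mul, h5, ← pow_two, hla, map_neg, map_one]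
  have hn : ¬ IsSquare (-1 : F) := by
    have := Fintype.ofFinite F
    rw [Nat.card_eq_fintype_card] at hq
    rw [FiniteField.isSquare_neg_one_iff]
    simpa using hq
  exact hn ⟨_, h6.symm⟩

omit [Finite F] in
lemma four_cases {i0 : K} (hi : i0 * i0 = -1) {la : Kˣ} (h : la ^ 4 = 1) :
    (la : K) = 1 ∨ (la : K) = -1 ∨ (la : K) ^ 2 = -1 := by
  have h1 : (la : K) ^ 4 = 1 := by
    rw [← Units.val_pow_eq_pow_val, h, Units.val_one]
  have h2 : ((la : K) - 1) * (((la : K) + 1) * ((la : K) ^ 2 + 1)) = 0 := by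
    linear_combination h1
  rcases mul_eq_zero.1 h2 with h3 | h3
  · exact Or.inl (sub_eq_zero.1 h3)
  · rcases mul_eq_zero.1 h3 with h3 | h3
    · exact Or.inr (Or.inl (eq_neg_of_add_eq_zero_left h3))
    · exact Or.inr (Or.inr (eq_neg_of_add_eq_zero_left h3))

/-- **(ii)** -/
theorem mx_ii (hq : Nat.card F % 4 = 3) (hq7 : 7 ≤ Nat.card F) {i0 : K} (hi : i0 * i0 = -1)
    (hb : b ≠ 0) (hm : 4 ∣ m + 1) (hX : X.1.map φ * Z.1 = c • (Z.1 * PP i0 σ b)) :
    3 * Nat.card {la : Kˣ // la ∈ mxT φ i0 σ b Z ∧ la ^ 4 = 1} ≤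
      2 * Nat.card (mxT φ i0 σ b Z) := by
  have hT := T_card hq hi hb hm hX
  have hS : Nat.card {la : Kˣ // la ∈ mxT φ i0 σ b Z ∧ la ^ 4 = 1} =
      ((fun la : Kˣ => (la : K)) '' {la : Kˣ | la ∈ mxT φ i0 σ b Z ∧ la ^ 4 = 1}).ncard := by
    rw [Set.ncard_image_of_injective _ (fun x y h => Units.ext h), ← Nat.card_coe_set_eq]
    rfl
  by_cases hc : ∃ c0, φ c0 = c
  · obtain ⟨c0, hc0⟩ := hc
    have h1 : ((fun la : Kˣ => (la : K)) '' {la : Kˣ | la ∈ mxT φ i0 σ b Z ∧ la ^ 4 = 1}) ⊆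
        {1, -1} := by
      rintro x ⟨la, ⟨h2, h3⟩, rfl⟩
      rcases four_cases hi h3 with h4 | h4 | h4
      · exact Or.inl h4
      · exact Or.inr h4
      · exact absurd h2 (not_mem_four hq hi hb hX hc0 h4)
    have h2 := Set.ncard_le_ncard h1 (Set.toFinite _)
    have h3 : ({1, -1} : Set K).ncard ≤ 2 := by
      refine le_trans (Set.ncard_insert_le _ _) ?_
      rw [Set.ncard_singleton]
    have h4 := gd_card φ c
    omega
  · push Not at hc
    have h1 : ((fun la : Kˣ => (la : K)) '' {la : Kˣ | la ∈ mxT φ i0 σ b Z ∧ la ^ 4 = 1}) ⊆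
        {1, -1, i0, -i0} := by
      rintro x ⟨la, ⟨h2, h3⟩, rfl⟩
      rcases four_cases hi h3 with h4 | h4 | h4
      · exact Or.inl h4
      · exact Or.inr (Or.inl h4)
      · rw [← hi, ← pow_two] at h4
        rcases sq_eq_sq_iff_eq_or_eq_neg.1 h4 with h5 | h5
        · exact Or.inr (Or.inr (Or.inl h5))
        · exact Or.inr (Or.inr (Or.inr h5))
    have h2 := Set.ncard_le_ncard h1 (Set.toFinite _)
    have h3 : ({1, -1, i0, -i0} : Set K).ncard ≤ 4 := by
      refine le_trans (Set.ncard_insert_le _ _) ?_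
      refine Nat.succ_le_succ (le_trans (Set.ncard_insert_le _ _) ?_)
      refine Nat.succ_le_succ (le_trans (Set.ncard_insert_le _ _) ?_)
      rw [Set.ncard_singleton]
    have h4 := gd_card' φ hc
    omega

/-- **(iii)** -/
theorem mx_iii (hq : Nat.card F % 4 = 3) (hq7 : 7 ≤ Nat.card F) {i0 : K} (hi : i0 * i0 = -1)
    (hb : b ≠ 0) (hm : 4 ∣ m + 1) (hX : X.1.map φ * Z.1 = c • (Z.1 * PP i0 σ b)) :
    ∃ la ∈ mxT φ i0 σ b Z, la ^ 4 ≠ 1 := by
  by_contra hcon
  push Not at hcon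
  have h1 := mx_ii hq hq7 hi hb hm hX
  have h2 : Nat.card {la : Kˣ // la ∈ mxT φ i0 σ b Z ∧ la ^ 4 = 1} =
      Nat.card (mxT φ i0 σ b Z) :=
    Nat.card_congr ⟨fun x => ⟨x.1, x.2.1⟩, fun x => ⟨x.1, x.2, hcon _ x.2⟩, fun _ => rfl,
      fun _ => rfl⟩
  have h3 := T_card hq hi hb hm hX
  omega

/-- **The three claims together.** -/
theorem mx (φ : F →+* K) (hq : Nat.card F % 4 = 3) (hq7 : 7 ≤ Nat.card F) (hma : m + 1 = 2 ^ a)
    (ha : 2 ≤ a) {i : Kˣ} (hi : (i : K) * i = -1) (σ : Fin (m + 1) ≃ Vv a) {b : Ww a} (hb : b ≠ 0)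
    {Z : GLm m K} {X : SLm m F} {c : K}
    (hX : X.1.map φ * Z.1 = c • (Z.1 * PP (i : K) σ b)) :
    12 ≤ Nat.card {la : Kˣ // la ^ 2 ∈ mxT φ (i : K) σ b Z} ∧
      3 * Nat.card {la : Kˣ // la ∈ mxT φ (i : K) σ b Z ∧ la ^ 4 = 1} ≤
        2 * Nat.card {la : Kˣ // la ∈ mxT φ (i : K) σ b Z} ∧
      ∃ la ∈ mxT φ (i : K) σ b Z, la ^ 4 ≠ 1 := by
  have hm : 4 ∣ m + 1 := by
    rw [hma]
    exact ⟨2 ^ (a - 2), by rw [show (4 : ℕ) = 2 ^ 2 by norm_num, ← pow_add]; congr 1; omega⟩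
  exact ⟨mx_i hq hq7 hi hb hm hX, mx_ii hq hq7 hi hb hm hX, mx_iii hq hq7 hi hb hm hX⟩

end

end Vale.Agent.P240.R2.H979
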