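import Vale.Agent.P240.R2.H979.Pull

/-!
`LocTopF` for `L` from the corresponding property of its automorphism group.
-/

set_option linter.all false

namespace Vale.Agent.P240.R2.H979

open Finsupp hiding cons
open Subgroup Vale.Agent.P240.K Vale.Agent.P240.R2.H487

universe u v

section
variable {G : Type u} [Group G] {Q : Type*} [Group Q] {N : Subgroup G}

/-- the image of `K` under a homomorphism defined on `N` -/
def im (π : N →* Q) (K : Subgroup G) : Subgroup Q := (K.subgroupOf N).map π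

/-- the pull-back to `K` under a homomorphism defined on `N` -/
def up (π : N →* Q) (K : Subgroup G) (R : Subgroup Q) : Subgroup G :=
  (pb π (K.subgroupOf N) R).map N.subtype

variable {π : N →* Q} {K : Subgroup G} {R : Subgroup Q}

lemma mem_im {q : Q} : q ∈ im π K ↔ ∃ x, ∃ hx : x ∈ N, x ∈ K ∧ π ⟨x, hx⟩ = q := by
  constructor
  · rintro ⟨⟨x, hx⟩, hxK, rfl⟩
    exact ⟨x, hx, hxK, rfl⟩
  · rintro ⟨x, hx, hxK, rfl⟩
    exact ⟨⟨x, hx⟩, hxK, rfl⟩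

lemma mem_up {x : G} : x ∈ up π K R ↔ ∃ hx : x ∈ N, x ∈ K ∧ π ⟨x, hx⟩ ∈ R := by
  constructor
  · rintro ⟨⟨x, hx⟩, hxK, rfl⟩
    obtain ⟨h1, h2⟩ := mem_pb.1 hxK
    exact ⟨hx, h2, h1⟩
  · rintro ⟨hx, hxK, h⟩
    exact ⟨⟨x, hx⟩, mem_pb.2 ⟨h, hxK⟩, rfl⟩

lemma up_le : up π K R ≤ K := fun x hx => (mem_up.1 hx).2.1

lemma up_le_N : up π K R ≤ N := fun x hx => (mem_up.1 hx).1

lemma im_up (h : R ≤ im π K) : im π (up π K R) = R := by
  ext q
  rw [mem_im]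
  constructor
  · rintro ⟨x, hx, hxK, rfl⟩
    exact (mem_up.1 hxK).2.2
  · intro hq
    obtain ⟨x, hx, hxK, rfl⟩ := mem_im.1 (h hq)
    exact ⟨x, hx, mem_up.2 ⟨hx, hxK, hq⟩, rfl⟩

lemma im_mono {K K' : Subgroup G} (h : K ≤ K') : im π K ≤ im π K' := by
  intro q hq
  obtain ⟨x, hx, hxK, rfl⟩ := mem_im.1 hq
  exact mem_im.2 ⟨x, hx, h hxK, rfl⟩

lemma im_sup {K K' : Subgroup G} (h : K ≤ N) (h' : K' ≤ N) : im π (K ⊔ K') = im π K ⊔ im π K' := by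
  rw [im, im, im, subgroupOf_sup h h', Subgroup.map_sup]

/-- injectivity on `K` -/
def InjOn (π : N →* Q) (K : Subgroup G) : Prop := ∀ x (hx : x ∈ N), x ∈ K → π ⟨x, hx⟩ = 1 → x = 1

lemma InjOn.eq (h : InjOn π K) {x y : G} (hx : x ∈ N) (hy : y ∈ N) (hxK : x ∈ K) (hyK : y ∈ K)
    (hxy : π ⟨x, hx⟩ = π ⟨y, hy⟩) : x = y := by
  rw [← mul_inv_eq_one]
  refine h _ (mul_mem hx (inv_mem hy)) (mul_mem hxK (inv_mem hyK)) ?_
  have h1 : (⟨x * y⁻¹, mul_mem hx (inv_mem hy)⟩ : N) = ⟨x, hx⟩ * ⟨y, hy⟩⁻¹ := rfl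
  rw [h1, map_mul, map_inv, hxy, mul_inv_cancel]

lemma InjOn.mono (h : InjOn π K) {K' : Subgroup G} (hK : K' ≤ K) : InjOn π K' :=
  fun x hx hxK h1 => h x hx (hK hxK) h1

lemma InjOn.card (h : InjOn π K) (hK : K ≤ N) : Nat.card (im π K) = Nat.card K := by
  rw [im, card_map_inj (M := K.subgroupOf N) (fun x hx hx1 => Subtype.ext (h x x.2 hx hx1)) le_rfl]
  exact Nat.card_congr (subgroupOfEquivOfLe hK).toEquiv

lemma InjOn.comm (h : InjOn π K) {x y : G} (hx : x ∈ N) (hy : y ∈ N) (hxK : x ∈ K) (hyK : y ∈ K)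
    (hxy : π ⟨x, hx⟩ * π ⟨y, hy⟩ = π ⟨y, hy⟩ * π ⟨x, hx⟩) : x * y = y * x := by
  refine h.eq (mul_mem hx hy) (mul_mem hy hx) (mul_mem hxK hyK) (mul_mem hyK hxK) ?_
  have h1 : (⟨x * y, mul_mem hx hy⟩ : N) = ⟨x, hx⟩ * ⟨y, hy⟩ := rfl
  have h2 : (⟨y * x, mul_mem hy hx⟩ : N) = ⟨y, hy⟩ * ⟨x, hx⟩ := rfl
  rw [h1, h2, map_mul, map_mul, hxy]

lemma InjOn.le_of_im_le (h : InjOn π K) (hKN : K ≤ N) {A B : Subgroup G} (hA : A ≤ K) (hB : B ≤ K)
    (hAB : im π A ≤ im π B) : A ≤ B := by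
  intro a ha
  obtain ⟨b, hb, hbB, hab⟩ := mem_im.1 (hAB (mem_im.2 ⟨a, hKN (hA ha), ha, rfl⟩))
  rw [h.eq (hKN (hA ha)) hb (hA ha) (hB hbB) hab.symm]
  exact hbB

lemma InjOn.ApS {p : ℕ} (h : InjOn π K) (hK : K ≤ N) (hA : im π K ∈ ApS p Q) : K ∈ ApS p G := by
  obtain ⟨h1, h2, h3⟩ := hA
  refine ⟨fun h0 => h1 ?_, fun x hx y hy => ?_, fun x hx => ?_⟩
  · rw [eq_bot_iff]
    intro q hq
    obtain ⟨x, hx, hxK, rfl⟩ := mem_im.1 hq
    rw [h0, mem_bot] at hxK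
    subst hxK
    exact mem_bot.2 (map_one π)
  · exact h.comm (hK hx) (hK hy) hx hy (h2 _ (mem_im.2 ⟨x, hK hx, hx, rfl⟩) _
      (mem_im.2 ⟨y, hK hy, hy, rfl⟩))
  · refine h _ (pow_mem (hK hx) p) (pow_mem hx p) ?_
    have h1 : (⟨x ^ p, pow_mem (hK hx) p⟩ : N) = ⟨x, hK hx⟩ ^ p := rfl
    rw [h1, map_pow]
    exact h3 _ (mem_im.2 ⟨x, hK hx, hx, rfl⟩)

/-- top cycles pull back along homomorphisms defined on `N` -/
theorem topCycle_up [Finite G] {𝕜 : Type v} [Field 𝕜] {p : ℕ} {M : Subgroup G} {E : Subgroup Q}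
    (hMN : M ≤ N) (h : InjOn π M) {α : Ch 𝕜 (Subgroup Q)} {φ : List (Subgroup Q)}
    (hT : TopCycle 𝕜 p (im π M) E α φ) (hE : E ≤ im π M) :
    ∃ (α' : Ch 𝕜 (Subgroup G)) (φ' : List (Subgroup G)), TopCycle 𝕜 p M (up π M E) α' φ' := by
  have h1 := topCycle_comap (𝕜 := 𝕜) (p := p) (M := M.subgroupOf N) (f := π)
    (fun x hx hx1 => Subtype.ext (h x x.2 hx hx1)) hT hE
  have h2 := topCycle_map (f := N.subtype) (fun x _ hx => Subtype.ext hx) h1 pb_le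
  rw [subgroupOf_map_subtype, inf_eq_left.2 hMN] at h2
  exact ⟨_, _, h2⟩

end

section
variable {𝕜 : Type v} [Field 𝕜] {G : Type u} [Group G]

/-- the general form -/
theorem locTopF_of_hom [Finite G] {L : Subgroup G} {Λ : Type*} [Group Λ]
    (π : normalizer (L : Set G) →* MulAut Λ) (hL : im π L = (MulAut.conj (G := Λ)).range)
    (hker : ∀ x (hx : x ∈ normalizer (L : Set G)), π ⟨x, hx⟩ = 1 ↔ x ∈ centralizer (L : Set G))
    (hc : L ⊓ centralizer (L : Set G) = ⊥) (h : AutTop 𝕜 Λ) : LocTopF 𝕜 2 L := by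
  obtain ⟨𝒜, ⟨A₀, hA₀⟩, h𝒜, hmain⟩ := h
  have hLN : L ≤ normalizer (L : Set G) := le_normalizer
  have hLinj : InjOn π L := fun x hx hxL h1 => by
    have h2 := mem_inf.2 ⟨hxL, (hker x hx).1 h1⟩
    rwa [hc, mem_bot] at h2
  have hup : ∀ A ∈ 𝒜, im π (up π L A) = A := fun A hA => im_up (by rw [hL]; exact (h𝒜 A hA).1)
  refine ⟨{A | A ≤ L ∧ im π A ∈ 𝒜}, ⟨up π L A₀, up_le, by rw [hup A₀ hA₀]; exact hA₀⟩, ?_, ?_⟩
  · rintro A ⟨hAL, hA⟩
    exact ⟨hAL, (hLinj.mono hAL).ApS (hAL.trans hLN) (h𝒜 _ hA).2.1⟩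
  intro E hE hEN E₁ hE₁ hAE hEC
  obtain ⟨A, ⟨hAL, hA⟩, hAE⟩ := hAE
  have hE₁N := hE₁.trans hEN
  -- the images
  have hcomm : ∀ x ∈ im π E, ∀ y ∈ im π E, x * y = y * x := by
    intro x hx y hy
    obtain ⟨a, ha, haE, rfl⟩ := mem_im.1 hx
    obtain ⟨b, hb, hbE, rfl⟩ := mem_im.1 hy
    rw [← map_mul, ← map_mul]
    exact congrArg π (Subtype.ext (hE.2.1 a haE b hbE))
  have hexp : ∀ x ∈ im π E, x ^ 2 = 1 := by
    intro x hx
    obtain ⟨a, ha, haE, rfl⟩ := mem_im.1 hx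
    rw [← map_pow]
    have h1 : (⟨a, ha⟩ : normalizer (L : Set G)) ^ 2 = 1 := Subtype.ext (hE.2.2 a haE)
    rw [h1, map_one]
  obtain ⟨Bb, hBbE, hB1, hB2, E'b, hE'le, hE'S, ⟨A', hA', hA'E⟩, hE'L, hcard, α, φ, hT⟩ :=
    hmain (im π E) hcomm hexp (im π E₁) (im_mono hE₁) ⟨im π A, hA, im_mono hAE⟩
  rw [← hL] at hE'le hE'L hT
  -- `B`
  have hBim : im π (up π E Bb) = Bb := im_up hBbE
  have hBE : up π E Bb ≤ E := up_le
  -- injectivity on `L ⊔ E₁`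
  have hcomA : ∀ x ∈ im π E, ∀ y ∈ im π A, x * y = y * x := fun x hx y hy =>
    hcomm x hx y (im_mono (hAE.trans hE₁) hy)
  have hnorm : ∀ b ∈ E₁, ∀ a ∈ L, b * a * b⁻¹ ∈ L := fun b hb a ha =>
    (mem_normalizer_iff.1 (hE₁N hb) a).1 ha
  have hinj : InjOn π (L ⊔ E₁) := by
    intro x hx hxK hx1
    have hxC := (hker x hx).1 hx1
    obtain ⟨l, hl, e, he, rfl⟩ := mem_sup_norm hnorm hxK
    have h1 : l ∈ A := by
      have h2 : π ⟨l, hLN hl⟩ ∈ im π A := by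
        refine (h𝒜 _ hA).2.2 _ (by rw [← hL]; exact mem_im.2 ⟨l, hLN hl, hl, rfl⟩) ?_
        intro y hy
        have h3 : π ⟨l, hLN hl⟩ = (π ⟨e, hE₁N he⟩)⁻¹ := by
          rw [← mul_eq_one_iff_eq_inv, ← map_mul]
          exact hx1
        rw [h3]
        exact hcomA _ (inv_mem (mem_im.2 ⟨e, hE₁N he, hE₁ he, rfl⟩)) y hy
      obtain ⟨a, ha, haA, hal⟩ := mem_im.1 h2
      rw [hLinj.eq (hLN hl) ha hl (hAL haA) hal.symm]
      exact haA
    have h2 : l * e ∈ E₁ ⊓ centralizer (L : Set G) := mem_inf.2 ⟨mul_mem (hAE h1) he, hxC⟩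
    rwa [hEC, mem_bot] at h2
  have hKN : L ⊔ E₁ ≤ normalizer (L : Set G) := sup_le hLN hE₁N
  have hMN : (L ⊔ E₁) ⊓ centralizer ((up π E Bb : Subgroup G) : Set G) ≤
      normalizer (L : Set G) := inf_le_left.trans hKN
  have hMinj := hinj.mono (K' := (L ⊔ E₁) ⊓ centralizer ((up π E Bb : Subgroup G) : Set G))
    inf_le_left
  -- the image of `M`
  have hM : im π ((L ⊔ E₁) ⊓ centralizer ((up π E Bb : Subgroup G) : Set G)) =
      (im π L ⊔ im π E₁) ⊓ centralizer (Bb : Set (MulAut Λ)) := by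
    refine le_antisymm (fun q hq => ?_) fun q hq => ?_
    · obtain ⟨x, hx, hxM, rfl⟩ := mem_im.1 hq
      obtain ⟨hx1, hx2⟩ := mem_inf.1 hxM
      refine mem_inf.2 ⟨?_, mem_centralizer_iff.2 fun b hb => ?_⟩
      · rw [← im_sup hLN hE₁N]
        exact mem_im.2 ⟨x, hx, hx1, rfl⟩
      · have hb' : b ∈ im π (up π E Bb) := by rw [hBim]; exact hb
        obtain ⟨y, hy, hyB, rfl⟩ := mem_im.1 hb'
        rw [← map_mul, ← map_mul]
        exact congrArg π (Subtype.ext (mem_centralizer_iff.1 hx2 y hyB))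
    · obtain ⟨hq1, hq2⟩ := mem_inf.1 hq
      rw [← im_sup hLN hE₁N] at hq1
      obtain ⟨x, hx, hxK, rfl⟩ := mem_im.1 hq1
      refine mem_im.2 ⟨x, hx, mem_inf.2 ⟨hxK, mem_centralizer_iff.2 fun b hb => ?_⟩, rfl⟩
      obtain ⟨hbN, hbE, hbB⟩ := mem_up.1 hb
      obtain ⟨l, hl, e, he, rfl⟩ := mem_sup_norm hnorm hxK
      have h1 : b * (l * e) * b⁻¹ * (l * e)⁻¹ = 1 := by
        refine hLinj _ ?_ ?_ ?_
        · exact mul_mem (mul_mem (mul_mem hbN hx) (inv_mem hbN)) (inv_mem hx)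
        · have h2 : b * e = e * b := hE.2.1 b hbE e (hE₁ he)
          have h3 : b * (l * e) * b⁻¹ * (l * e)⁻¹ = (b * l * b⁻¹) * l⁻¹ := by
            have h4 : e * b⁻¹ * e⁻¹ = b⁻¹ := by
              rw [mul_inv_eq_iff_eq_mul, eq_inv_mul_iff_mul_eq, ← mul_assoc, h2,
                mul_inv_cancel_right]
            calc b * (l * e) * b⁻¹ * (l * e)⁻¹ = b * l * (e * b⁻¹ * e⁻¹) * l⁻¹ := by group
              _ = (b * l * b⁻¹) * l⁻¹ := by rw [h4]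
          rw [h3]
          exact mul_mem ((mem_normalizer_iff.1 hbN l).1 hl) (inv_mem hl)
        · have h2 : (⟨b * (l * e) * b⁻¹ * (l * e)⁻¹,
              mul_mem (mul_mem (mul_mem hbN hx) (inv_mem hbN)) (inv_mem hx)⟩ :
                normalizer (L : Set G)) = ⟨b, hbN⟩ * ⟨l * e, hx⟩ * ⟨b, hbN⟩⁻¹ * ⟨l * e, hx⟩⁻¹ := rfl
          rw [h2, map_mul, map_mul, map_mul, map_inv, map_inv,
            mem_centralizer_iff.1 hq2 _ hbB, mul_inv_cancel_right, mul_inv_cancel]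
      have h2 : b * (l * e) * b⁻¹ = l * e := by
        rw [← mul_inv_eq_one]
        exact h1
      rwa [mul_inv_eq_iff_eq_mul] at h2
  rw [← hM] at hE'le hT
  have hE'im : im π (up π ((L ⊔ E₁) ⊓ centralizer ((up π E Bb : Subgroup G) : Set G)) E'b) = E'b :=
    im_up hE'le
  refine ⟨up π E Bb, hBE, ?_, ?_, ?_, up π ((L ⊔ E₁) ⊓
    centralizer ((up π E Bb : Subgroup G) : Set G)) E'b, up_le, ?_, ?_, ?_, ?_, ?_,
    topCycle_up hMN hMinj hT hE'le⟩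
  · -- `E₁ ⊔ B = E`
    refine le_antisymm (sup_le hE₁ hBE) fun g hg => ?_
    have h1 : π ⟨g, hEN hg⟩ ∈ im π E₁ ⊔ Bb := by
      rw [hB1]
      exact mem_im.2 ⟨g, hEN hg, hg, rfl⟩
    obtain ⟨a, ha, b, hb, hab⟩ := mem_sup_norm (fun b hb a ha => by
      rw [hcomm b (hBbE hb) a (im_mono hE₁ ha), mul_inv_cancel_right]
      exact ha) h1
    obtain ⟨e, he, heE, rfl⟩ := mem_im.1 ha
    have h2 : e⁻¹ * g ∈ up π E Bb := by
      refine mem_up.2 ⟨mul_mem (inv_mem he) (hEN hg), mul_mem (inv_mem (hE₁ heE)) hg, ?_⟩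
      have h3 : (⟨e⁻¹ * g, mul_mem (inv_mem he) (hEN hg)⟩ : normalizer (L : Set G)) =
        ⟨e, he⟩⁻¹ * ⟨g, hEN hg⟩ := rfl
      rw [h3, map_mul, map_inv, ← hab, inv_mul_cancel_left]
      exact hb
    have h3 := mul_mem (le_sup_left (a := E₁) (b := up π E Bb) heE) (le_sup_right (a := E₁) h2)
    rwa [mul_inv_cancel_left] at h3
  · -- `E₁ ⊓ B = ⊥`
    rw [eq_bot_iff, ← hEC]
    intro g hg
    obtain ⟨hg1, hg2⟩ := mem_inf.1 hg
    obtain ⟨hgN, _, hgB⟩ := mem_up.1 hg2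
    refine mem_inf.2 ⟨hg1, (hker g hgN).1 ?_⟩
    have h1 : π ⟨g, hgN⟩ ∈ im π E₁ ⊓ Bb := mem_inf.2 ⟨mem_im.2 ⟨g, hgN, hg1, rfl⟩, hgB⟩
    rwa [hB2, mem_bot] at h1
  · -- `E ⊓ C(L) ≤ B`
    intro g hg
    obtain ⟨hg1, hg2⟩ := mem_inf.1 hg
    refine mem_up.2 ⟨hEN hg1, hg1, ?_⟩
    rw [(hker g (hEN hg1)).2 hg2]
    exact one_mem _
  · -- `E' ∈ ApS`
    refine (hMinj.mono up_le).ApS (up_le.trans hMN) ?_
    rw [hE'im]
    exact hE'S
  · -- a member of the family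
    have h1 := hup A' hA'
    refine ⟨up π L A', ⟨up_le, by rw [h1]; exact hA'⟩, fun a ha => ?_⟩
    obtain ⟨haN, haL, haA⟩ := mem_up.1 ha
    refine mem_up.2 ⟨haN, ?_, hA'E haA⟩
    obtain ⟨m, hm, hmM, hma⟩ := mem_im.1 (hE'le (hA'E haA))
    rw [hinj.eq haN hm (le_sup_left (a := L) haL) (mem_inf.1 hmM).1 hma.symm]
    exact hmM
  · -- `E' ⊓ (C(L) ⊔ B) = ⊥`
    rw [eq_bot_iff]
    intro z hz
    obtain ⟨hz1, hz2⟩ := mem_inf.1 hz
    obtain ⟨hzN, hzM, hzE⟩ := mem_up.1 hz1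
    obtain ⟨c, hc', b, hb, hcb⟩ := mem_sup_norm (fun b hb c hc => by
      have hbN : b ∈ normalizer (L : Set G) := (mem_up.1 hb).1
      rw [mem_centralizer_iff] at hc ⊢
      intro l hl
      have h1 : b⁻¹ * l * b ∈ L := by
        have h2 := (mem_normalizer_iff.1 hbN (b⁻¹ * l * b)).2
        apply h2
        have h3 : b * (b⁻¹ * l * b) * b⁻¹ = l := by group
        rwa [h3]
      have h4 := hc _ h1
      calc l * (b * c * b⁻¹) = b * ((b⁻¹ * l * b) * c) * b⁻¹ := by group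
        _ = b * (c * (b⁻¹ * l * b)) * b⁻¹ := by rw [h4]
        _ = b * c * b⁻¹ * l := by group) hz2
    obtain ⟨hbN, hbE, hbB⟩ := mem_up.1 hb
    have hcN : c ∈ normalizer (L : Set G) := by
      have h1 := mul_mem hzN (inv_mem hbN)
      rwa [← hcb, mul_inv_cancel_right] at h1
    have hzB : π ⟨z, hzN⟩ ∈ Bb := by
      have h1 : (⟨z, hzN⟩ : normalizer (L : Set G)) = ⟨c, hcN⟩ * ⟨b, hbN⟩ := Subtype.ext hcb.symm
      rw [h1, map_mul, (hker c hcN).2 hc', one_mul]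
      exact hbB
    have hzK : π ⟨z, hzN⟩ ∈ im π L ⊔ im π E₁ := by
      rw [← im_sup hLN hE₁N]
      exact mem_im.2 ⟨z, hzN, (mem_inf.1 hzM).1, rfl⟩
    have h1 : π ⟨z, hzN⟩ ∈ im π E₁ := by
      obtain ⟨i, hi, e, he, hie⟩ := mem_sup_norm (fun e he i hi => by
        obtain ⟨e, heN, heE, rfl⟩ := mem_im.1 he
        obtain ⟨i, hiN, hiL, rfl⟩ := mem_im.1 hi
        rw [← map_mul, ← map_inv, ← map_mul]
        exact mem_im.2 ⟨_, _, hnorm e heE i hiL, rfl⟩) hzK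
      have h2 : i ∈ im π A := by
        refine (h𝒜 _ hA).2.2 _ (by rw [← hL]; exact hi) fun y hy => ?_
        have h3 : i = π ⟨z, hzN⟩ * e⁻¹ := by rw [← hie, mul_inv_cancel_right]
        rw [h3]
        exact hcomA _ (mul_mem (hBbE hzB) (inv_mem (im_mono hE₁ he))) y hy
      rw [← hie]
      exact mul_mem (im_mono hAE h2) he
    have h2 : π ⟨z, hzN⟩ ∈ im π E₁ ⊓ Bb := mem_inf.2 ⟨h1, hzB⟩
    rw [hB2, mem_bot] at h2
    exact mem_bot.2 (hinj z hzN (mem_inf.1 hzM).1 h2)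
  · -- `L ⊔ E' = L ⊔ E₁`
    have h1 : up π ((L ⊔ E₁) ⊓ centralizer ((up π E Bb : Subgroup G) : Set G)) E'b ≤ L ⊔ E₁ :=
      up_le.trans inf_le_left
    have h2 : im π (L ⊔ up π ((L ⊔ E₁) ⊓ centralizer ((up π E Bb : Subgroup G) : Set G)) E'b) =
        im π (L ⊔ E₁) := by
      rw [im_sup hLN up_le_N, im_sup hLN hE₁N, hE'im, hE'L]
    exact le_antisymm (hinj.le_of_im_le hKN (sup_le le_sup_left h1) le_rfl h2.le)
      (hinj.le_of_im_le hKN le_rfl (sup_le le_sup_left h1) h2.ge)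
  · -- cardinalities
    rw [← (hinj.mono (le_sup_right (a := L))).card hE₁N, ← (hMinj.mono up_le).card
      (up_le.trans hMN), hE'im]
    exact hcard

/-- **`LocTopF` from the automorphism group.** -/
theorem locTopF_of_autTop [Finite G] {L : Subgroup G} {Λ : Type*} [Group Λ] (e : Λ ≃* L)
    (hc : ∀ x : Λ, (∀ y, x * y = y * x) → x = 1) (h : AutTop 𝕜 Λ) : LocTopF 𝕜 2 L := by
  have hLN : L ≤ normalizer (L : Set G) := le_normalizer
  let π : normalizer (L : Set G) →* MulAut Λ :=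
    (MulAut.congr e.symm).toMonoidHom.comp L.normalizerMonoidHom
  have hπ : ∀ (n : normalizer (L : Set G)) (x : Λ), ((e (π n x) : L) : G) = n * (e x : G) * (n : G)⁻¹ := by
    intro n x
    have h1 : π n x = e.symm (L.normalizerMonoidHom n (e x)) := rfl
    rw [h1, MulEquiv.apply_symm_apply]
    rfl
  have hconj : ∀ x : Λ, π ⟨e x, hLN (e x).2⟩ = MulAut.conj x := by
    intro x
    refine MulEquiv.ext fun y => e.injective (Subtype.ext ?_)
    rw [hπ, MulAut.conj_apply, map_mul, map_mul, map_inv]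
    rfl
  refine locTopF_of_hom π ?_ ?_ ?_ h
  · ext q
    rw [mem_im]
    constructor
    · rintro ⟨x, hx, hxL, rfl⟩
      refine ⟨e.symm ⟨x, hxL⟩, ?_⟩
      rw [← hconj]
      refine congrArg π (Subtype.ext ?_)
      show ((e (e.symm ⟨x, hxL⟩) : L) : G) = x
      rw [MulEquiv.apply_symm_apply]
    · rintro ⟨x, rfl⟩
      exact ⟨e x, hLN (e x).2, (e x).2, hconj x⟩
  · intro x hx
    rw [mem_centralizer_iff]
    constructor
    · intro h1 l hl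
      have h2 := hπ ⟨x, hx⟩ (e.symm ⟨l, hl⟩)
      rw [h1, MulAut.one_apply, MulEquiv.apply_symm_apply] at h2
      have h3 : l = x * l * x⁻¹ := h2
      rw [eq_mul_inv_iff_mul_eq] at h3
      exact h3
    · intro h1
      refine MulEquiv.ext fun y => e.injective (Subtype.ext ?_)
      rw [hπ, MulAut.one_apply]
      have h2 := h1 (e y) (e y).2
      show x * (e y : G) * x⁻¹ = (e y : G)
      rw [← h2, mul_inv_cancel_right]
  · rw [eq_bot_iff]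
    intro x hx
    obtain ⟨hx1, hx2⟩ := mem_inf.1 hx
    have h1 : e.symm ⟨x, hx1⟩ = 1 := by
      refine hc _ fun y => e.injective (Subtype.ext ?_)
      rw [map_mul, map_mul, MulEquiv.apply_symm_apply]
      exact (mem_centralizer_iff.1 hx2 (e y) (e y).2).symm
    have h2 : (⟨x, hx1⟩ : L) = 1 := by
      rw [← e.apply_symm_apply ⟨x, hx1⟩, h1, map_one]
    exact mem_bot.2 (congrArg Subtype.val h2)

end

end Vale.Agent.P240.R2.H979
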