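import Mathlib.FieldTheory.Finite.Basic
import Vale.Agent.P240.R2.H487.CN1
import Vale.Agent.P240.R2.H487.CO4
import Vale.Agent.P240.R2.H487.DN

/-!
The numerical conditions for `|F| = 1` modulo `4`, `|F| ≠ 5, 9, 25`.
-/

set_option linter.all false

namespace Vale.Agent.P240.R2.H979

open Subgroup Vale.Agent.P240.K Vale.Agent.P240.H195 Vale.Agent.P240.R2.H487

section
variable {F : Type*} [Field F] [Finite F]

lemma rat4_le {U : ZMod 2 → Subgroup Fˣ} {t : ZMod 2} : rat4 U t ≤ 4 / Nat.card (U t) := by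
  rw [rat4]
  have h1 : Nat.card {μ : Fˣ // μ ∈ U t ∧ μ ^ 4 = 1} ≤ 4 := by
    refine le_trans ?_ (card_ker_le (F := F) (d := 4) (by norm_num))
    refine Nat.card_le_card_of_injective (fun μ => ⟨μ.1, μ.2.2⟩) ?_
    intro x y hxy
    exact Subtype.ext (congrArg (fun z : (powMonoidHom 4 : Fˣ →* Fˣ).ker => (z : Fˣ)) hxy)
  have h2 : (Nat.card {μ : Fˣ // μ ∈ U t ∧ μ ^ 4 = 1} : ℚ) ≤ 4 := by exact_mod_cast h1
  have h3 : (0 : ℚ) ≤ Nat.card (U t) := Nat.cast_nonneg _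
  exact div_le_div_of_nonneg_right h2 h3

lemma card_ge (h4 : Nat.card F % 4 = 1) (h5 : Nat.card F ≠ 5) (h9 : Nat.card F ≠ 9) :
    13 ≤ Nat.card F := by
  have h1 : 1 < Nat.card F := Finite.one_lt_card
  omega

lemma top_lt (h4 : Nat.card F % 4 = 1) (h : 13 ≤ Nat.card F) :
    rat (fun _ => (⊤ : Subgroup Fˣ)) 0 < 2 / 3 := by
  have h1 : Nat.card (⊤ : Subgroup Fˣ) = Nat.card F - 1 := by
    rw [Subgroup.card_top, Nat.card_units]
  by_cases h5 : Nat.card F % 8 = 5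
  · refine lt_of_le_of_lt (rat_le (U := fun _ => (⊤ : Subgroup Fˣ)) (t := 0) (n := 4) (by norm_num)
      fun μ _ h => ?_) ?_
    · have h6 : μ ^ (Nat.card F - 1) = 1 := by
        rw [← Nat.card_units]
        exact pow_card_eq_one'
      exact pow_four (s := Nat.card F / 8) (by omega) h6 h
    · have h2 : (12 : ℚ) ≤ Nat.card (⊤ : Subgroup Fˣ) := by
        rw [h1]
        exact_mod_cast (by omega : 12 ≤ Nat.card F - 1)
      rw [div_lt_iff₀ (by linarith)]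
      push_cast
      linarith
  · refine lt_of_le_of_lt (rat_le (U := fun _ => (⊤ : Subgroup Fˣ)) (t := 0) (n := 8) (by norm_num)
      fun μ _ h => h) ?_
    have h2 : (16 : ℚ) ≤ Nat.card (⊤ : Subgroup Fˣ) := by
      rw [h1]
      exact_mod_cast (by omega : 16 ≤ Nat.card F - 1)
    rw [div_lt_iff₀ (by linarith)]
    push_cast
    linarith

lemma numU {τ : RingAut F} {q : ℕ} (hq : 7 ≤ q) (hodd : Odd q) (hτ : ∀ x, τ x = x ^ q)
    (hF : Nat.card F = q ^ 2) :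
    (∀ t, rat (Ut τ) t < 2 / 3) ∧ rat (Ut τ) 0 + rat (Ut τ) 1 < 1 ∧
      rat4 (Ut τ) 0 + rat4 (Ut τ) 1 ≤ 31 / 48 := by
  obtain ⟨h0, h1⟩ := Ut_ker (by omega) hτ
  obtain ⟨c0, c1⟩ := card_Ut (by omega) hodd hτ hF
  have hq' : (7 : ℚ) ≤ q := by exact_mod_cast hq
  have e0 : ((Nat.card (Ut τ 0) : ℕ) : ℚ) = 2 * (q - 1) := by
    rw [c0, Nat.cast_mul, Nat.cast_sub (by omega)]
    norm_num
  have e1 : ((Nat.card (Ut τ 1) : ℕ) : ℚ) = 2 * (q + 1) := by
    rw [c1]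
    push_cast
    ring
  have p0 : (0 : ℚ) < 2 * (q - 1) := by linarith
  have p1 : (0 : ℚ) < 2 * (q + 1) := by linarith
  obtain ⟨k, hk⟩ := hodd
  have key : ∃ a b : ℚ, rat (Ut τ) 0 ≤ a ∧ rat (Ut τ) 1 ≤ b ∧ a ≤ 1 / 2 ∧ b ≤ 1 / 2 ∧
      a + b ≤ 5 / 6 := by
    rcases Nat.even_or_odd' k with ⟨s, hs | hs⟩
    · -- `q = 4 s + 1`
      have hq2 : 9 ≤ q := by omega
      have hq2' : (9 : ℚ) ≤ q := by exact_mod_cast hq2
      have r0 := rat_le (U := Ut τ) (t := 0) (n := 8) (by norm_num) fun μ _ h => h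
      have r1 := rat_le (U := Ut τ) (t := 1) (n := 4) (by norm_num) fun μ hμ h => by
        rw [h1, MonoidHom.mem_ker, powMonoidHom_apply] at hμ
        exact pow_four (s := s) (by omega) hμ h
      rw [e0] at r0
      rw [e1] at r1
      refine ⟨8 / 16, 4 / 20, r0.trans ?_, r1.trans ?_, by norm_num, by norm_num, by norm_num⟩
      · rw [div_le_div_iff₀ p0 (by norm_num)]
        push_cast
        linarith
      · rw [div_le_div_iff₀ p1 (by norm_num)]
        push_cast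
        linarith
    · have r0 := rat_le (U := Ut τ) (t := 0) (n := 4) (by norm_num) fun μ hμ h => by
        rw [h0, MonoidHom.mem_ker, powMonoidHom_apply] at hμ
        exact pow_four (s := s) (by omega) hμ h
      have r1 := rat_le (U := Ut τ) (t := 1) (n := 8) (by norm_num) fun μ _ h => h
      rw [e0] at r0
      rw [e1] at r1
      refine ⟨4 / 12, 8 / 16, r0.trans ?_, r1.trans ?_, by norm_num, by norm_num, by norm_num⟩
      · rw [div_le_div_iff₀ p0 (by norm_num)]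
        push_cast
        linarith
      · rw [div_le_div_iff₀ p1 (by norm_num)]
        push_cast
        linarith
  obtain ⟨a, b, h2, h3, h4, h5, h6⟩ := key
  refine ⟨fun t => ?_, by linarith, ?_⟩
  · rcases zmod2_cases t with rfl | rfl
    · linarith
    · linarith
  · have r0 := rat4_le (U := Ut τ) (t := 0)
    have r1 := rat4_le (U := Ut τ) (t := 1)
    rw [e0] at r0
    rw [e1] at r1
    have s0 : (4 : ℚ) / (2 * (q - 1)) ≤ 4 / 12 := by
      rw [div_le_div_iff₀ p0 (by norm_num)]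
      linarith
    have s1 : (4 : ℚ) / (2 * (q + 1)) ≤ 4 / 16 := by
      rw [div_le_div_iff₀ p1 (by norm_num)]
      linarith
    have s2 : (4 : ℚ) / 12 + 4 / 16 ≤ 31 / 48 := by norm_num
    linarith

lemma exU {τ : RingAut F} {q : ℕ} (hq : 7 ≤ q) (hodd : Odd q) (hτ : ∀ x, τ x = x ^ q)
    (hF : Nat.card F = q ^ 2) (t : ZMod 2) :
    ((∃ μ, μ ∉ Ut τ t) ∧ ∃ μ ∈ Ut τ t, μ ^ 4 ≠ 1) ∧ 12 ≤ Nat.card (Ut τ t) := by
  obtain ⟨c0, c1⟩ := card_Ut (by omega) hodd hτ hF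
  have hc : 12 ≤ Nat.card (Ut τ t) ∧ Nat.card (Ut τ t) < Nat.card F - 1 := by
    have h1 : 7 * q ≤ q ^ 2 := by
      rw [pow_two]
      exact Nat.mul_le_mul_right _ hq
    rw [hF]
    rcases zmod2_cases t with rfl | rfl
    · rw [c0]
      omega
    · rw [c1]
      omega
  refine ⟨⟨?_, ex_pow (by norm_num) (by omega)⟩, hc.1⟩
  by_contra hcon
  push Not at hcon
  have h1 : Ut τ t = ⊤ := eq_top_iff.2 fun μ _ => hcon μ
  have h2 := hc.2
  rw [h1, Subgroup.card_top, Nat.card_units] at h2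
  exact lt_irrefl _ h2

/-- **The numerical conditions** for `|F| = 1` modulo `4`. -/
theorem numA (h4 : Nat.card F % 4 = 1) (hq : Nat.card F ≠ 5 ∧ Nat.card F ≠ 9 ∧ Nat.card F ≠ 25) :
    NumA F := by
  obtain ⟨h5, h9, h25⟩ := hq
  have h13 := card_ge h4 h5 h9
  obtain ⟨r, hr, hchar⟩ := exists_char F
  have := Fintype.ofFinite F
  have hodd : Odd (Nat.card F) := Nat.odd_iff.2 (by omega)
  have hτ : ∀ τ : RingAut F, τ ≠ 1 → τ ^ 2 = 1 → ∃ q, 7 ≤ q ∧ Odd q ∧ (∀ x, τ x = x ^ q) ∧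
      Nat.card F = q ^ 2 := by
    intro τ h1 h3
    obtain ⟨k, -, h6, h7⟩ := ff_quad (r := r) h1 h3
    have h8 : Odd (r ^ k) := by
      rw [h6] at hodd
      exact (Nat.odd_pow_iff two_ne_zero).1 hodd
    refine ⟨r ^ k, ?_, h8, h7, h6⟩
    obtain ⟨x, hx⟩ : ∃ x, x = r ^ k := ⟨_, rfl⟩
    rw [← hx] at h6 h8 ⊢
    by_contra hlt
    push Not at hlt
    obtain ⟨y, hy⟩ := h8
    have hx' : x = 1 ∨ x = 3 ∨ x = 5 := by omega
    rcases hx' with h | h | h
    · rw [h] at h6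
      have h10 : Nat.card F = 1 := h6.trans (by norm_num)
      omega
    · rw [h] at h6
      exact h9 (h6.trans (by norm_num))
    · rw [h] at h6
      exact h25 (h6.trans (by norm_num))
  refine ⟨ex0 h13, fun τ h1 h3 t => ?_, top_lt h4 h13, fun τ h1 h3 => ?_, fun τ h1 h3 => ?_,
    fun τ h1 h3 => ?_, fun τ h1 h3 t => ?_, ?_⟩
  · obtain ⟨q, h6, h7, h8, h10⟩ := hτ τ h1 h3
    exact (exU h6 h7 h8 h10 t).1
  · obtain ⟨q, h6, h7, h8, h10⟩ := hτ τ h1 h3
    exact (numU h6 h7 h8 h10).1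
  · obtain ⟨q, h6, h7, h8, h10⟩ := hτ τ h1 h3
    exact (numU h6 h7 h8 h10).2.1
  · obtain ⟨q, h6, h7, h8, h10⟩ := hτ τ h1 h3
    exact (numU h6 h7 h8 h10).2.2
  · obtain ⟨q, h6, h7, h8, h10⟩ := hτ τ h1 h3
    exact (exU h6 h7 h8 h10 t).2
  · rw [Nat.card_units]
    omega

end

end Vale.Agent.P240.R2.H979
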