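import Vale.Agent.P240.R2.H727.RankM

/-!
Refined rank bound: the case of equality.
-/

set_option linter.all false

open Module Polynomial

universe u v

namespace Vale.Agent.P240.R2.H979

open Vale.Agent.P240.R2.H727

section
variable {E F V : Type*} [CommGroup E] [Field F] [AddCommGroup V] [Module F V]

theorem sum_finrank_le' {ι : Type*} [Fintype ι] [DecidableEq ι] [FiniteDimensional F V]
    {q : ι → Submodule F V} (hq : iSupIndep q) : ∑ i, finrank F (q i) ≤ finrank F V := by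
  rw [← Module.finrank_directSum]
  exact LinearMap.finrank_le_finrank_of_injective (f := DirectSum.coeLinearMap q)
    hq.dfinsupp_lsum_injective

/-- an endomorphism with range in a line -/
theorem exists_functional {g : Module.End F V} {u : V} (hu : u ≠ 0)
    (h : ∀ v, ∃ c : F, g v = c • u) : ∃ f : V →ₗ[F] F, ∀ v, g v = f v • u := by
  choose c hc using h
  have hinj : ∀ a b : F, a • u = b • u → a = b := by
    intro a b hab
    have h1 : (a - b) • u = 0 := by rw [sub_smul, hab, sub_self]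
    rcases smul_eq_zero.1 h1 with h2 | h2
    · exact sub_eq_zero.1 h2
    · exact absurd h2 hu
  refine ⟨{ toFun := c, map_add' := ?_, map_smul' := ?_ }, hc⟩
  · intro x y
    apply hinj
    rw [← hc, map_add, hc, hc, add_smul]
  · intro r x
    apply hinj
    rw [← hc, map_smul, hc, RingHom.id_apply, smul_assoc]

variable [IsAlgClosed F] [FiniteDimensional F V] (P : PR E F V)

/-- the commuting case -/
theorem comm_refine [Nontrivial V] {p : ℕ} [hpp : Fact p.Prime] (hE : ∀ x : E, x ^ p = 1)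
    (hp : (p : F) ≠ 0) (hc : ∀ x y, P.a x * P.a y = P.a y * P.a x) (hn : 2 ≤ finrank F V) :
    Nat.card E ≤ p ^ (finrank F V - 2) ∨ ∃ (x : E) (la ζ : F) (u : V) (f : V →ₗ[F] F),
      ζ ^ p = 1 ∧ ζ ≠ 1 ∧ la ≠ 0 ∧ u ≠ 0 ∧ f u = la * (ζ - 1) ∧
        ∀ v, P.a x v = la • v + f v • u := by
  classical
  have hp0 : NeZero p := ⟨hpp.out.ne_zero⟩
  have hss : ∀ x, (P.a x).IsSemisimple := by
    intro x
    obtain ⟨c, hc0, h⟩ := P.powp hE x
    exact semisimple hp hc0 h
  have hcomm : ∀ x y, Commute (P.a x) (P.a y) := fun x y => hc x y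
  have htop := Module.End.iSup_iInf_maxGenEigenspace_eq_top_of_iSup_maxGenEigenspace_eq_top_of_commute
    P.a (fun i j _ => hcomm i j) (fun i => Module.End.iSup_maxGenEigenspace_eq_top (P.a i))
  have hind := Module.End.independent_iInf_maxGenEigenspace_of_forall_mapsTo P.a
    (fun i j φ => Module.End.mapsTo_maxGenEigenspace_of_comm (hcomm j i) φ)
  set S : (E → F) → Submodule F V := fun χ => ⨅ i, (P.a i).maxGenEigenspace (χ i) with hS
  let _ : Fintype {χ // S χ ≠ ⊥} := hind.fintypeNeBotOfFiniteDimensional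
  have hcard : Fintype.card {χ // S χ ≠ ⊥} ≤ finrank F V := hind.subtype_ne_bot_le_finrank
  have hev : ∀ χ, ∀ v ∈ S χ, ∀ x, P.a x v = χ x • v := by
    intro χ v hv x
    have h1 : v ∈ (P.a x).maxGenEigenspace (χ x) := (Submodule.mem_iInf _).1 hv x
    rw [(Module.End.isFinitelySemisimple_iff_isSemisimple.mpr
      (hss x)).maxGenEigenspace_eq_eigenspace] at h1
    exact Module.End.mem_eigenspace_iff.1 h1
  obtain ⟨χ0, hχ0⟩ : ∃ χ, S χ ≠ ⊥ := by
    by_contra hcon
    push Not at hcon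
    have : (⨆ χ, S χ) = ⊥ := by simp [hcon]
    rw [this] at htop
    exact bot_ne_top htop
  have hne : ∀ χ : {χ // S χ ≠ ⊥}, ∀ x, χ.1 x ≠ 0 := by
    intro χ x h0
    obtain ⟨v, hv, hv0⟩ := (Submodule.ne_bot_iff _).1 χ.2
    have := hev χ.1 v hv x
    rw [h0, zero_smul] at this
    exact hv0 (P.inj x (by rw [this, map_zero]))
  have hpw : ∀ χ : {χ // S χ ≠ ⊥}, ∀ x, ∀ c : F, (P.a x) ^ p = c • 1 → (χ.1 x) ^ p = c := by
    intro χ x c h
    obtain ⟨v, hv, hv0⟩ := (Submodule.ne_bot_iff _).1 χ.2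
    have h1 : ∀ k : ℕ, ((P.a x) ^ k) v = (χ.1 x) ^ k • v := by
      intro k
      induction k with
      | zero => simp
      | succ k ih =>
        rw [pow_succ', Module.End.mul_apply, ih, map_smul, hev χ.1 v hv x, smul_smul, pow_succ]
    have h2 := h1 p
    rw [h] at h2
    simp only [LinearMap.smul_apply, Module.End.one_apply] at h2
    rw [← sub_eq_zero, ← sub_smul] at h2
    rcases smul_eq_zero.1 h2 with h3 | h3
    · exact (sub_eq_zero.1 h3).symm
    · exact absurd h3 hv0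
  have hratio : ∀ χ : {χ // S χ ≠ ⊥}, ∀ x, (χ.1 x / χ0 x) ^ p = 1 := by
    intro χ x
    obtain ⟨c, hc0, h⟩ := P.powp hE x
    rw [div_pow, hpw χ x c h, hpw ⟨χ0, hχ0⟩ x c h, div_self hc0]
  let Φ : E → ({χ : {χ // S χ ≠ ⊥} // χ ≠ ⟨χ0, hχ0⟩} → rootsOfUnity p F) := fun x χ =>
    rootsOfUnity.mkOfPowEq (χ.1.1 x / χ0 x) (hratio χ.1 x)
  have hΦv : ∀ x χ, (((Φ x χ : rootsOfUnity p F) : Fˣ) : F) = χ.1.1 x / χ0 x := fun x χ => by
    simp [Φ]
  have hinj : Function.Injective Φ := by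
    intro x y hxy
    have hval : ∀ χ : {χ // S χ ≠ ⊥}, χ.1 x / χ0 x = χ.1 y / χ0 y := by
      intro χ
      by_cases h : χ = ⟨χ0, hχ0⟩
      · subst h
        rw [div_self (hne ⟨χ0, hχ0⟩ x), div_self (hne ⟨χ0, hχ0⟩ y)]
      · have h1 := congrFun hxy ⟨χ, h⟩
        have h2 := congrArg (fun u : rootsOfUnity p F => ((u : Fˣ) : F)) h1
        simpa [Φ] using h2
    apply P.eq_of_smul x y (χ0 x / χ0 y)
    have hle : (⨆ χ, S χ) ≤ LinearMap.eqLocus (P.a x) ((χ0 x / χ0 y) • P.a y) := by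
      refine iSup_le fun χ v hv => ?_
      rw [LinearMap.mem_eqLocus, LinearMap.smul_apply, hev χ v hv x, hev χ v hv y, smul_smul]
      by_cases h : S χ = ⊥
      · rw [h, Submodule.mem_bot] at hv
        simp [hv]
      · congr 1
        have h1 := hval ⟨χ, h⟩
        have h2 := hne ⟨χ0, hχ0⟩ x
        have h3 := hne ⟨χ0, hχ0⟩ y
        simp only at h1 h2 h3
        field_simp at h1 ⊢
        linear_combination h1
    rw [htop] at hle
    ext v
    exact hle (Submodule.mem_top : v ∈ ⊤)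
  have h1 : Nat.card E ≤ Nat.card ({χ : {χ // S χ ≠ ⊥} // χ ≠ ⟨χ0, hχ0⟩} → rootsOfUnity p F) :=
    Nat.card_le_card_of_injective Φ hinj
  have h2 : Nat.card ({χ : {χ // S χ ≠ ⊥} // χ ≠ ⟨χ0, hχ0⟩} → rootsOfUnity p F) =
      (Nat.card (rootsOfUnity p F)) ^ (Fintype.card {χ // S χ ≠ ⊥} - 1) := by
    rw [Nat.card_fun]
    congr 1
    rw [Nat.card_eq_fintype_card, Fintype.card_subtype_compl, Fintype.card_subtype_eq]
  have h3 : Nat.card (rootsOfUnity p F) ≤ p := card_rootsOfUnity F p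
  have h4 : Nat.card ({χ : {χ // S χ ≠ ⊥} // χ ≠ ⟨χ0, hχ0⟩} → rootsOfUnity p F) ≤
      p ^ (Fintype.card {χ // S χ ≠ ⊥} - 1) := by
    rw [h2]
    exact Nat.pow_le_pow_left h3 _
  by_cases hX : Fintype.card {χ // S χ ≠ ⊥} = finrank F V
  swap
  · left
    refine h1.trans (h4.trans (Nat.pow_le_pow_right hpp.out.pos ?_))
    omega
  rw [hX] at h4
  by_cases hsmall : Nat.card E ≤ p ^ (finrank F V - 2)
  · exact Or.inl hsmall
  right
  have hfin : Finite E := Finite.of_injective Φ hinj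
  obtain ⟨r, hr⟩ := IsPGroup.iff_card.1 (show IsPGroup p E from fun x => ⟨1, by
    rw [pow_one]; exact hE x⟩)
  have hbig : p ^ (finrank F V - 1) ≤ Nat.card E := by
    rw [hr]
    apply Nat.pow_le_pow_right hpp.out.pos
    rw [hr] at hsmall
    have h5 : finrank F V - 2 < r := by
      by_contra h6
      exact hsmall (Nat.pow_le_pow_right hpp.out.pos (by omega))
    omega
  have hbij : Function.Bijective Φ := by
    have hfin2 : Finite ({χ : {χ // S χ ≠ ⊥} // χ ≠ ⟨χ0, hχ0⟩} → rootsOfUnity p F) := inferInstance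
    exact hinj.bijective_of_nat_card_le (h4.trans hbig)
  -- a second character and a root of unity
  obtain ⟨χ1, hχ1⟩ : ∃ χ1 : {χ // S χ ≠ ⊥}, χ1 ≠ ⟨χ0, hχ0⟩ := by
    have h5 : 1 < Fintype.card {χ // S χ ≠ ⊥} := by omega
    obtain ⟨a, ha⟩ := Fintype.exists_ne_of_one_lt_card h5 ⟨χ0, hχ0⟩
    exact ⟨a, ha⟩
  obtain ⟨ζ, hζ⟩ : ∃ ζ : rootsOfUnity p F, ζ ≠ 1 := by
    by_contra hcon
    push Not at hcon
    have hsub : Subsingleton (rootsOfUnity p F) := ⟨fun a b => (hcon a).trans (hcon b).symm⟩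
    have h5 : Nat.card (rootsOfUnity p F) = 1 := Nat.card_of_subsingleton 1
    rw [h5, one_pow] at h2
    rw [h2] at h1
    have h6 : p ^ 1 ≤ p ^ (finrank F V - 1) := Nat.pow_le_pow_right hpp.out.pos (by omega)
    have h7 := hpp.out.two_le
    rw [pow_one] at h6
    have h8 := h6.trans (hbig.trans h1)
    omega
  obtain ⟨x, hx0⟩ := hbij.2 (fun χ => if χ.1 = χ1 then ζ else 1)
  have hx : ∀ χ, Φ x χ = if χ.1 = χ1 then ζ else 1 := fun χ => congrFun hx0 χ
  have hxv : ∀ χ : {χ // S χ ≠ ⊥}, χ ≠ χ1 → χ.1 x = χ0 x := by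
    intro χ hχ
    by_cases h : χ = ⟨χ0, hχ0⟩
    · rw [h]
    · have h5 := hΦv x ⟨χ, h⟩
      rw [hx, if_neg (show (⟨χ, h⟩ : {χ : {χ // S χ ≠ ⊥} // χ ≠ ⟨χ0, hχ0⟩}).1 ≠ χ1 from hχ)] at h5
      have h6 : (1 : F) = χ.1 x / χ0 x := by simpa using h5
      rw [eq_div_iff (hne ⟨χ0, hχ0⟩ x), one_mul] at h6
      exact h6.symm
  have hx1 : χ1.1 x = ((ζ : Fˣ) : F) * χ0 x := by
    have h5 := hΦv x ⟨χ1, hχ1⟩
    rw [hx, if_pos rfl, eq_div_iff (hne ⟨χ0, hχ0⟩ x)] at h5
    exact h5.symm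
  obtain ⟨u, hu, hu0⟩ := (Submodule.ne_bot_iff _).1 χ1.2
  have hrk : finrank F (S χ1.1) ≤ 1 := by
    by_contra hcon
    push Not at hcon
    have hind' : iSupIndep (fun χ : {χ // S χ ≠ ⊥} => S χ.1) :=
      hind.comp Subtype.val_injective
    have h5 := sum_finrank_le' hind'
    have h6 : ∀ χ : {χ // S χ ≠ ⊥}, 1 ≤ finrank F (S χ.1) := by
      intro χ
      have : Nontrivial (S χ.1) := (Submodule.nontrivial_iff_ne_bot).2 χ.2
      exact Module.finrank_pos
    have h7 : ∑ χ : {χ // S χ ≠ ⊥}, 1 < ∑ χ : {χ // S χ ≠ ⊥}, finrank F (S χ.1) :=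
      Finset.sum_lt_sum (fun χ _ => h6 χ) ⟨χ1, Finset.mem_univ _, hcon⟩
    rw [Finset.sum_const, Finset.card_univ, smul_eq_mul, mul_one, hX] at h7
    omega
  have hline : ∀ v ∈ S χ1.1, ∃ c : F, v = c • u := by
    intro v hv
    have h5 := (finrank_le_one_iff (K := F) (V := S χ1.1)).1 hrk
    obtain ⟨w, hw⟩ := h5
    obtain ⟨a, ha⟩ := hw ⟨u, hu⟩
    obtain ⟨b, hb⟩ := hw ⟨v, hv⟩
    have ha' : a • (w : V) = u := congrArg Subtype.val ha
    have hb' : b • (w : V) = v := congrArg Subtype.val hb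
    have ha0 : a ≠ 0 := by
      rintro rfl
      rw [zero_smul] at ha'
      exact hu0 ha'.symm
    exact ⟨b / a, by rw [← ha', smul_smul, div_mul_cancel₀ _ ha0, hb']⟩
  obtain ⟨f, hf⟩ := exists_functional (g := P.a x - (χ0 x) • (1 : Module.End F V)) hu0 (by
    intro v
    have hle : (⨆ χ, S χ) ≤ Submodule.comap (P.a x - (χ0 x) • (1 : Module.End F V))
        (Submodule.span F {u}) := by
      refine iSup_le fun χ v hv => ?_
      rw [Submodule.mem_comap, Submodule.mem_span_singleton, LinearMap.sub_apply,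
        LinearMap.smul_apply, Module.End.one_apply, hev χ v hv x]
      by_cases h : S χ = ⊥
      · rw [h, Submodule.mem_bot] at hv
        exact ⟨0, by simp [hv]⟩
      · by_cases h5 : (⟨χ, h⟩ : {χ // S χ ≠ ⊥}) = χ1
        · have h6 : χ = χ1.1 := congrArg Subtype.val h5
          rw [h6] at hv
          obtain ⟨c, rfl⟩ := hline v hv
          exact ⟨(χ x - χ0 x) * c, by rw [mul_smul, sub_smul]⟩
        · refine ⟨0, ?_⟩
          have h6 := hxv ⟨χ, h⟩ h5
          simp only at h6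
          rw [h6, sub_self, zero_smul]
    rw [htop] at hle
    have h5 := hle (Submodule.mem_top : v ∈ ⊤)
    rw [Submodule.mem_comap, Submodule.mem_span_singleton] at h5
    obtain ⟨c, hc⟩ := h5
    exact ⟨c, hc.symm⟩)
  have hf' : ∀ v, P.a x v = χ0 x • v + f v • u := by
    intro v
    rw [← hf v, LinearMap.sub_apply, LinearMap.smul_apply, Module.End.one_apply,
      add_sub_cancel]
  refine ⟨x, χ0 x, ((ζ : Fˣ) : F), u, f, ?_, ?_, hne ⟨χ0, hχ0⟩ x, hu0, ?_, hf'⟩
  · have h5 := ζ.2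
    rw [mem_rootsOfUnity] at h5
    have h6 := congrArg Units.val h5
    simpa using h6
  · intro h5
    apply hζ
    apply Subtype.ext
    apply Units.ext
    simpa using h5
  · have h5 := hf' u
    rw [hev χ1.1 u hu x, hx1] at h5
    have h6 : (f u - χ0 x * (((ζ : Fˣ) : F) - 1)) • u = 0 := by
      rw [sub_smul, ← sub_eq_of_eq_add' h5, sub_eq_zero, ← sub_smul]
      congr 1
      ring
    rcases smul_eq_zero.1 h6 with h7 | h7
    · exact sub_eq_zero.1 h7
    · exact absurd h7 hu0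

end

/-- the general case -/
theorem card_refine {F : Type*} [Field F] [IsAlgClosed F] {p : ℕ} [hpp : Fact p.Prime]
    (hp : (p : F) ≠ 0) (n : ℕ) (E : Type u) [CommGroup E] (V : Type v) [AddCommGroup V]
    [Module F V] [FiniteDimensional F V] (hn : finrank F V = n) (hn2 : 2 ≤ n)
    (hE : ∀ x : E, x ^ p = 1) (P : PR E F V) :
    (∃ k m : ℕ, 1 ≤ k ∧ 1 ≤ m ∧ p ^ k * m ≤ n ∧ Nat.card E ≤ p ^ (m - 1 + 2 * k)) ∨
    Nat.card E ≤ p ^ (n - 2) ∨ ∃ (x : E) (la ζ : F) (u : V) (f : V →ₗ[F] F),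
      ζ ^ p = 1 ∧ ζ ≠ 1 ∧ la ≠ 0 ∧ u ≠ 0 ∧ f u = la * (ζ - 1) ∧
        ∀ v, P.a x v = la • v + f v • u := by
  have : Nontrivial V := Module.nontrivial_of_finrank_pos (R := F) (by omega)
  by_cases hall : ∀ x y, P.w x y = 1
  · right
    have h1 := comm_refine P hE hp (fun x y => P.w_eq_one_comm x y (hall x y)) (by omega)
    rwa [hn] at h1
  · left
    push Not at hall
    obtain ⟨x, y, hxy⟩ := hall
    obtain ⟨U, hU0, hUd, H, hH, hinv, hf⟩ := P.exists_sub hE hp x y hxy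
    have hUpos : 1 ≤ finrank F U := by
      have : Nontrivial U := (Submodule.nontrivial_iff_ne_bot).2 hU0
      exact Module.finrank_pos
    obtain ⟨k, m, hm, hkm, hc⟩ := card_le_aux hp (finrank F U) H U rfl hUpos
      (fun z => Subtype.ext (by simpa using hE z)) (P.restr H U hinv hf)
    refine ⟨k + 1, m, by omega, hm, ?_, ?_⟩
    · calc p ^ (k + 1) * m = p * (p ^ k * m) := by ring
        _ ≤ p * finrank F U := Nat.mul_le_mul_left _ hkm
        _ ≤ n := by rw [← hn]; exact hUd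
    · calc Nat.card E ≤ p ^ 2 * Nat.card H := hH
        _ ≤ p ^ 2 * p ^ (m - 1 + 2 * k) := Nat.mul_le_mul_left _ hc
        _ = p ^ (m - 1 + 2 * (k + 1)) := by rw [← pow_add]; congr 1; ring

end Vale.Agent.P240.R2.H979
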