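import Mathlib.LinearAlgebra.Matrix.SchurComplement
import Vale.Agent.P240.R2.AS.Stmts2
import Vale.Agent.P240.R2.H727.M4
import Vale.Agent.P240.R2.H979.A3a

/-!
`StmtA3`: the `p`-rank of `PSU_n(q)`, `(q + 1)_p ∣ n`.
-/

set_option linter.all false

open Module Matrix

namespace Vale.Agent.P240.R2.H979

open Vale.Agent.P240.R2.H727 Vale.Agent.P240.R2.AS

universe u

/-- numbers -/
theorem num_a3 {p n k m : ℕ} (hp : p.Prime) (hp2 : p ≠ 2) (hpn : p ∣ n) (h33 : ¬ (p = 3 ∧ n = 3))
    (hk : 1 ≤ k) (hm : 1 ≤ m) (h : p ^ k * m ≤ n) : m - 1 + 2 * k ≤ n - 2 := by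
  have hp3 : 3 ≤ p := by
    have := hp.two_le
    omega
  have h3 : ∀ j : ℕ, 2 * (j + 2) + 2 ≤ 3 ^ (j + 2) := by
    intro j
    induction j with
    | zero => norm_num
    | succ j ih =>
      have : 3 ^ (j + 1 + 2) = 3 * 3 ^ (j + 2) := by ring
      omega
  have key : 2 * k + 2 ≤ p ^ k → m - 1 + 2 * k ≤ n - 2 := by
    intro h4
    have h5 : (2 * k + 2) * m ≤ n := (Nat.mul_le_mul_right m h4).trans h
    have h6 : (2 * k + 1) * 1 ≤ (2 * k + 1) * m := Nat.mul_le_mul_left _ hm
    have h7 : (2 * k + 2) * m = (2 * k + 1) * m + m := by ring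
    omega
  rcases Nat.lt_or_ge 1 k with hk2 | hk2
  · apply key
    obtain ⟨j, rfl⟩ := Nat.exists_eq_add_of_le hk2
    have h4 := h3 j
    have h5 : (3 : ℕ) ^ (j + 2) ≤ p ^ (j + 2) := Nat.pow_le_pow_left hp3 _
    rw [show Nat.succ 1 + j = j + 2 by omega]
    omega
  · have hk1 : k = 1 := by omega
    subst hk1
    rw [pow_one] at h
    by_cases hp4 : p = 3
    · subst hp4
      obtain ⟨r, rfl⟩ := hpn
      have hr : r ≠ 1 := fun h => h33 ⟨rfl, by omega⟩
      omega
    · apply key
      rw [pow_one]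
      omega

section
variable {K F : Type*} [Field K] [Field F] (φ : K →+* F) {n : ℕ}

/-- the multiple eigenvalue is in `K` -/
theorem la_mem (hn : 3 ≤ n) {M : Matrix (Fin n) (Fin n) K} {la : F} {u w : Fin n → F}
    (h : M.map φ = la • (1 : Matrix (Fin n) (Fin n) F) + vecMulVec u w) :
    ∃ l0 : K, φ l0 = la := by
  have he : ∀ i j, φ (M i j) = la * (if i = j then 1 else 0) + u i * w j := by
    intro i j
    have h1 := congrFun (congrFun h i) j
    rwa [Matrix.map_apply, Matrix.add_apply, Matrix.smul_apply, Matrix.one_apply, smul_eq_mul,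
      vecMulVec_apply] at h1
  by_cases hoff : ∃ i j, i ≠ j ∧ M i j ≠ 0
  · obtain ⟨i, j, hij, hM⟩ := hoff
    obtain ⟨k, hki, hkj⟩ : ∃ k : Fin n, k ≠ i ∧ k ≠ j := by
      by_contra hcon
      push Not at hcon
      have h1 : (Finset.univ : Finset (Fin n)) ⊆ {i, j} := by
        intro k _
        by_cases hk : k = i
        · simp [hk]
        · simp [hcon k hk]
      have h2 := Finset.card_le_card h1
      rw [Finset.card_univ, Fintype.card_fin] at h2
      have h3 := Finset.card_le_two (a := i) (b := j)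
      omega
    have h1 := he i j
    have h2 := he k k
    have h3 := he i k
    have h4 := he k j
    rw [if_neg hij] at h1
    rw [if_pos rfl] at h2
    rw [if_neg hki.symm] at h3
    rw [if_neg hkj] at h4
    have h5 : φ (M i j) ≠ 0 := (map_ne_zero φ).2 hM
    refine ⟨M k k - M i k * M k j / M i j, ?_⟩
    rw [map_sub, map_div₀, map_mul, sub_eq_iff_eq_add, ← sub_eq_iff_eq_add', eq_div_iff h5, h2, h3,
      h4, h1]
    ring
  · push Not at hoff
    have hz : ∀ i j, i ≠ j → u i * w j = 0 := by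
      intro i j hij
      have h1 := he i j
      rw [if_neg hij, hoff i j hij, map_zero, mul_zero, zero_add] at h1
      exact h1.symm
    by_cases hk : ∃ k, u k * w k = 0
    · obtain ⟨k, hk⟩ := hk
      refine ⟨M k k, ?_⟩
      rw [he k k, if_pos rfl, hk]
      ring
    · exfalso
      push Not at hk
      have h0 := hk ⟨0, by omega⟩
      have h1 := hk ⟨1, by omega⟩
      have h2 := hz ⟨0, by omega⟩ ⟨1, by omega⟩ (by
        intro h
        have := congrArg Fin.val h
        simp at this)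
      rcases mul_eq_zero.1 h2 with h3 | h3
      · exact h0 (by rw [h3, zero_mul])
      · exact h1 (by rw [h3, mul_zero])

theorem det_la {la ζ : F} {u w : Fin n → F} (hla : la ≠ 0)
    (h : w ⬝ᵥ u = la * (ζ - 1)) :
    (la • (1 : Matrix (Fin n) (Fin n) F) + vecMulVec u w).det = la ^ n * ζ := by
  have h1 : la • (1 : Matrix (Fin n) (Fin n) F) + vecMulVec u w =
      la • (1 + replicateCol Unit (la⁻¹ • u) * replicateRow Unit w) := by
    rw [smul_add, ← vecMulVec_eq]
    congr 1
    ext i j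
    rw [Matrix.smul_apply, vecMulVec_apply, vecMulVec_apply, Pi.smul_apply, smul_eq_mul,
      smul_eq_mul]
    field_simp
  rw [h1, Matrix.det_smul, Fintype.card_fin, det_one_add_replicateCol_mul_replicateRow,
    dotProduct_smul, h, smul_eq_mul]
  field_simp
  ring

end

theorem stmtA3 : StmtA3.{u} := by
  intro K _ _ _ q hq hK hs p hpp hpq hp2 n hdiv hn h33 E hEL hE hEp
  classical
  have hp := hpp.out
  have hp3 : 3 ≤ p := by
    have := hp.two_le
    omega
  have hpn : p ∣ n := by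
    refine dvd_trans ?_ hdiv
    refine dvd_pow_self p ?_
    have := one_le_padicValNat_of_dvd (by omega : q + 1 ≠ 0) hpq
    omega
  have hn3 : 3 ≤ n := hp3.trans (Nat.le_of_dvd hn hpn)
  have hker : ∀ g : GU K n, QuotientGroup.mk' (Subgroup.center (GU K n)) g = 1 ↔
      ∃ c : K, (rhoU K n g : Matrix (Fin n) (Fin n) K) = c • 1 := by
    intro g
    rw [QuotientGroup.mk'_apply, QuotientGroup.eq_one_iff, center_iff (by omega) hK hs hn]
    rfl
  let _ := cg E hE
  let F := AlgebraicClosure K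
  let φ : K →+* F := algebraMap K F
  have hpF : (p : F) ≠ 0 := by
    intro h
    apply cast_ne_zero hK hpq
    apply φ.injective
    rw [map_natCast, map_zero, h]
  have hne : Nonempty (Fin n) := ⟨⟨0, hn⟩⟩
  obtain ⟨k, m, hk, hm, hkm, hc⟩ | h | ⟨x, la, ζ, u, f, hζ, hζ1, hla, hu, hfu, hP⟩ :=
    card_refine hpF n E (Fin n → F) (by simp [F]) (by omega)
      (fun x => Subtype.ext (hEp x x.2))
      (toPR (QuotientGroup.mk' _) (QuotientGroup.mk'_surjective _) (rhoU K n) hker E hE)
  · exact hc.trans (Nat.pow_le_pow_right hp.pos (num_a3 hp hp2 hpn h33 hk hm hkm))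
  · exact h
  exfalso
  -- the lift with determinant one
  obtain ⟨g', hg', hgx⟩ : ∃ g' ∈ SU K n, QuotientGroup.mk' (Subgroup.center (GU K n)) g' = x := by
    have h1 := hEL x.2
    exact h1
  set g := Classical.choose (QuotientGroup.mk'_surjective (Subgroup.center (GU K n)) (x : PGU K n))
    with hgdef
  have hg : QuotientGroup.mk' (Subgroup.center (GU K n)) g = x :=
    Classical.choose_spec (QuotientGroup.mk'_surjective (Subgroup.center (GU K n)) (x : PGU K n))
  have hdet : (g' : Matrix (Fin n) (Fin n) K).det = 1 := hg'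
  obtain ⟨c, hc⟩ : ∃ c : K, (g : Matrix (Fin n) (Fin n) K) = c • (g' : Matrix (Fin n) (Fin n) K) := by
    obtain ⟨c, hc⟩ := (hker (g * g'⁻¹)).1 (by rw [map_mul, map_inv, hg, hgx, mul_inv_cancel])
    refine ⟨c, ?_⟩
    have h1 : rhoU K n g = rhoU K n (g * g'⁻¹) * rhoU K n g' := by
      rw [← map_mul, inv_mul_cancel_right]
    have h2 := congrArg (fun u : Matrix.GeneralLinearGroup (Fin n) K => (u : Matrix (Fin n) (Fin n) K)) h1
    simp only [Units.val_mul] at h2
    rw [hc, smul_mul_assoc, one_mul] at h2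
    exact h2
  have hc0 : c ≠ 0 := by
    rintro rfl
    rw [zero_smul] at hc
    have h1 := Matrix.mem_unitaryGroup_iff.1 g.2
    rw [hc, zero_mul] at h1
    exact zero_ne_one h1
  have hPx : ∀ v : Fin n → F, ((g : Matrix (Fin n) (Fin n) K).map φ) *ᵥ v = la • v + f v • u := by
    intro v
    have h1 := hP v
    rw [← Matrix.toLin'_apply]
    exact h1
  have hφc : φ c ≠ 0 := (map_ne_zero φ).2 hc0
  set la' : F := (φ c)⁻¹ * la with hla'
  set w : Fin n → F := fun j => (φ c)⁻¹ * f (Pi.single j 1) with hw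
  have hmat : (g' : Matrix (Fin n) (Fin n) K).map φ =
      la' • (1 : Matrix (Fin n) (Fin n) F) + vecMulVec u w := by
    ext i j
    have h1 := congrFun (hPx (Pi.single j 1)) i
    rw [Matrix.mulVec_single_one, hc] at h1
    simp only [Matrix.col_apply, Matrix.map_apply, Matrix.smul_apply, smul_eq_mul, map_mul,
      Pi.add_apply, Pi.smul_apply] at h1
    rw [Matrix.map_apply, Matrix.add_apply, Matrix.smul_apply, vecMulVec_apply, smul_eq_mul, hla',
      hw]
    have h2 : (Pi.single j (1 : F) : Fin n → F) i = (1 : Matrix (Fin n) (Fin n) F) i j := by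
      rw [Matrix.one_apply, Pi.single_apply]
    rw [h2] at h1
    apply mul_left_cancel₀ hφc
    rw [h1]
    have h3 : φ c * ((φ c)⁻¹ * la * (1 : Matrix (Fin n) (Fin n) F) i j +
        u i * ((φ c)⁻¹ * f (Pi.single j 1))) = (φ c * (φ c)⁻¹) *
        (la * (1 : Matrix (Fin n) (Fin n) F) i j + f (Pi.single j 1) * u i) := by ring
    rw [h3, mul_inv_cancel₀ hφc, one_mul]
  have hwu : w ⬝ᵥ u = la' * (ζ - 1) := by
    have h1 : f u = ∑ j, u j * f (Pi.single j 1) := by
      conv_lhs => rw [← Finset.univ_sum_single u]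
      rw [map_sum]
      refine Finset.sum_congr rfl fun j _ => ?_
      have h2 : (Pi.single j (u j) : Fin n → F) = u j • Pi.single j (1 : F) := by
        rw [← Pi.single_smul, smul_eq_mul, mul_one]
      rw [h2, map_smul, smul_eq_mul]
    rw [hla', mul_assoc, ← hfu, h1, dotProduct, Finset.mul_sum]
    refine Finset.sum_congr rfl fun j _ => ?_
    rw [hw]
    ring
  have hla0 : la' ≠ 0 := mul_ne_zero (inv_ne_zero hφc) hla
  obtain ⟨l0, hl0⟩ := la_mem φ hn3 hmat
  have hdet2 : la' ^ n * ζ = 1 := by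
    rw [← det_la hla0 hwu, ← hmat]
    have h1 : ((g' : Matrix (Fin n) (Fin n) K).map φ).det =
        φ (g' : Matrix (Fin n) (Fin n) K).det := (RingHom.map_det φ _).symm
    rw [h1, hdet, map_one]
  -- `ζ` in `K`
  obtain ⟨z0, hz0⟩ : ∃ z0 : K, φ z0 = ζ := by
    refine ⟨(l0 ^ n)⁻¹, ?_⟩
    rw [map_inv₀, map_pow, hl0]
    exact (eq_inv_of_mul_eq_one_right hdet2).symm
  have hl00 : l0 ≠ 0 := by
    rintro rfl
    rw [map_zero] at hl0
    exact hla0 hl0.symm
  have e1 : l0 ^ n * z0 = 1 := φ.injective (by rw [map_mul, map_pow, hl0, hz0, hdet2, map_one])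
  have e2 : z0 ^ p = 1 := φ.injective (by rw [map_pow, hz0, hζ, map_one])
  have e3 : z0 ≠ 1 := by
    rintro rfl
    rw [map_one] at hz0
    exact hζ1 hz0.symm
  -- `g' ^ p` is scalar
  obtain ⟨d, hd⟩ : ∃ d : K, ((g' ^ p : GU K n) : Matrix (Fin n) (Fin n) K) = d • 1 := by
    refine (hker (g' ^ p)).1 ?_
    rw [map_pow, hgx, hEp x x.2]
  have e4 : l0 ^ p = d := by
    have h1 : ∀ j : ℕ, (((g' : Matrix (Fin n) (Fin n) K) ^ j).map φ) *ᵥ u = (la' * ζ) ^ j • u := by
      intro j
      induction j with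
      | zero =>
        rw [pow_zero, pow_zero, one_smul, Matrix.map_one _ (map_zero φ) (map_one φ),
          Matrix.one_mulVec]
      | succ j ih =>
        rw [pow_succ', Matrix.map_mul, ← Matrix.mulVec_mulVec, ih, Matrix.mulVec_smul, hmat,
          Matrix.add_mulVec, Matrix.smul_mulVec, Matrix.one_mulVec, vecMulVec_mulVec, hwu]
        rw [show MulOpposite.op (la' * (ζ - 1)) • u = (la' * (ζ - 1)) • u by
          ext i; simp [mul_comm], ← add_smul, smul_smul, pow_succ]
        congr 1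
        ring
    have h2 := h1 p
    have h3 : ((g' : Matrix (Fin n) (Fin n) K) ^ p) = d • 1 := by
      rw [← hd]
      rfl
    rw [h3, mul_pow, hζ, mul_one] at h2
    have h4 : ((d • (1 : Matrix (Fin n) (Fin n) K)).map φ) *ᵥ u = φ d • u := by
      have h5 : (d • (1 : Matrix (Fin n) (Fin n) K)).map φ =
          φ d • (1 : Matrix (Fin n) (Fin n) F) := by
        ext i j
        rw [Matrix.map_apply, Matrix.smul_apply, Matrix.smul_apply, smul_eq_mul, smul_eq_mul,
          map_mul, Matrix.one_apply, Matrix.one_apply]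
        split_ifs
        · rw [map_one]
        · rw [map_zero]
      rw [h5, Matrix.smul_mulVec, Matrix.one_mulVec]
    rw [h4] at h2
    have h6 : (φ d - la' ^ p) • u = 0 := by rw [sub_smul, h2, sub_self]
    apply φ.injective
    rw [map_pow, hl0]
    rcases smul_eq_zero.1 h6 with h7 | h7
    · exact (sub_eq_zero.1 h7).symm
    · exact absurd h7 hu
  have e5 : d ^ (q + 1) = 1 := by
    have h1 := Matrix.mem_unitaryGroup_iff.1 (g' ^ p).2
    rw [hd, star_smul, star_one, smul_mul_smul_comm, one_mul] at h1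
    have h2 := congrFun (congrFun h1 ⟨0, hn⟩) ⟨0, hn⟩
    rw [Matrix.smul_apply, Matrix.one_apply_eq, smul_eq_mul, mul_one, hs, ← pow_succ'] at h2
    exact h2
  -- the norm of `l0`
  have hgcd : Nat.Coprime p (q - 1) := by
    rw [Nat.Prime.coprime_iff_not_dvd hp]
    intro h1
    have h2 := (Nat.dvd_sub hpq h1)
    rw [show q + 1 - (q - 1) = 2 by omega] at h2
    exact hp2 ((Nat.prime_dvd_prime_iff_eq hp Nat.prime_two).1 h2)
  have e6 : (l0 ^ (q + 1)) ^ p = 1 := by
    rw [← pow_mul, mul_comm, pow_mul, e4, e5]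
  have e7 : (l0 ^ (q + 1)) ^ (q - 1) = 1 := by
    have h1 : l0 ^ (q ^ 2 - 1) = 1 := by
      rw [← hK, Nat.card_eq_fintype_card]
      exact FiniteField.pow_card_sub_one_eq_one l0 hl00
    rw [← pow_mul]
    rw [show (q + 1) * (q - 1) = q ^ 2 - 1 by
      have := Nat.sq_sub_sq q 1
      rw [one_pow] at this
      exact this.symm]
    exact h1
  have e8 : l0 ^ (q + 1) = 1 := by
    have h1 := pow_gcd_eq_one.2 ⟨e6, e7⟩
    rwa [hgcd.gcd_eq_one, pow_one] at h1
  -- the contradiction
  obtain ⟨r, hr⟩ : p ^ padicValNat p (q + 1) ∣ q + 1 := pow_padicValNat_dvd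
  have hpr : ¬ p ∣ r := by
    rintro ⟨s, rfl⟩
    have h1 : p ^ (padicValNat p (q + 1) + 1) ∣ q + 1 := ⟨s, by
      rw [pow_succ, mul_assoc]
      exact hr⟩
    exact pow_succ_padicValNat_not_dvd (by omega : q + 1 ≠ 0) h1
  have e9 : (l0 ^ n) ^ r = 1 := by
    obtain ⟨s, hs⟩ := hdiv
    rw [← pow_mul]
    have h1 : n * r = (q + 1) * s := by
      rw [hs]
      conv_rhs => rw [hr]
      ring
    rw [h1, pow_mul, e8, one_pow]
  have e10 : z0 ^ r = 1 := by
    have h1 : (l0 ^ n * z0) ^ r = 1 := by rw [e1, one_pow]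
    rwa [mul_pow, e9, one_mul] at h1
  have e11 := pow_gcd_eq_one.2 ⟨e2, e10⟩
  rw [((Nat.Prime.coprime_iff_not_dvd hp).2 hpr).gcd_eq_one, pow_one] at e11
  exact e3 e11

end Vale.Agent.P240.R2.H979
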