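import Mathlib.LinearAlgebra.Matrix.SchurComplement
import Vale.Agent.P240.R2.AS.Stmts4
import Vale.Agent.P240.R2.H979.A3

/-!
`StmtA3g`: the `p`-rank of `PSU_n(q)`, `(q + 1)_p ∣ n`, all primes `p`.
-/

set_option linter.all false

open Module Matrix

namespace Vale.Agent.P240.R2.H979

open Vale.Agent.P240.R2.H727 Vale.Agent.P240.R2.AS

universe u

/-- numbers, all primes -/
theorem num_a3g {p n k m : ℕ} (hp : p.Prime) (hpn : p ∣ n) (h33 : ¬ (p = 3 ∧ n = 3))
    (h22 : ¬ (p = 2 ∧ n = 2)) (h24 : ¬ (p = 2 ∧ n = 4)) (hn : 1 ≤ n)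
    (hk : 1 ≤ k) (hm : 1 ≤ m) (h : p ^ k * m ≤ n) : m - 1 + 2 * k ≤ n - 2 := by
  by_cases hp2 : p = 2
  swap
  · exact num_a3 hp hp2 hpn h33 hk hm h
  subst hp2
  have hn6 : 6 ≤ n := by
    have h1 : n ≠ 2 := fun h => h22 ⟨rfl, h⟩
    have h2 : n ≠ 4 := fun h => h24 ⟨rfl, h⟩
    omega
  rcases Nat.lt_or_ge k 3 with hk3 | hk3
  · have : k = 1 ∨ k = 2 := by omega
    rcases this with rfl | rfl
    · omega
    · norm_num at h
      omega
  · have h3 : ∀ j : ℕ, 2 * (j + 3) + 2 ≤ 2 ^ (j + 3) := by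
      intro j
      induction j with
      | zero => norm_num
      | succ j ih =>
        have : 2 ^ (j + 1 + 3) = 2 * 2 ^ (j + 3) := by ring
        omega
    obtain ⟨j, rfl⟩ := Nat.exists_eq_add_of_le hk3
    have h4 := h3 j
    rw [add_comm j 3] at h4
    have h5 : (2 * (3 + j) + 2) * m ≤ n := (Nat.mul_le_mul_right m h4).trans h
    have h6 : (2 * (3 + j) + 1) * 1 ≤ (2 * (3 + j) + 1) * m := Nat.mul_le_mul_left _ hm
    have h7 : (2 * (3 + j) + 2) * m = (2 * (3 + j) + 1) * m + m := by ring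
    omega

section
variable {K : Type*} [Field K] [StarRing K] {n : ℕ}

lemma eig_pair {M : Matrix (Fin n) (Fin n) K} (hM : M ∈ Matrix.unitaryGroup (Fin n) K) {l0 : K}
    {v v' : Fin n → K} (hv : M *ᵥ v = l0 • v) (hv' : M *ᵥ v' = l0 • v') :
    (1 - star l0 * l0) * (star v ⬝ᵥ v') = 0 := by
  have h1 : star (M *ᵥ v) ⬝ᵥ (M *ᵥ v') = star v ⬝ᵥ v' := by
    rw [Matrix.star_mulVec, ← Matrix.dotProduct_mulVec, Matrix.mulVec_mulVec]
    have h2 := Matrix.mem_unitaryGroup_iff'.1 hM
    rw [Matrix.star_eq_conjTranspose] at h2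
    rw [h2, Matrix.one_mulVec]
  rw [hv, hv', star_smul, smul_dotProduct, dotProduct_smul, smul_eq_mul, smul_eq_mul] at h1
  linear_combination -h1

theorem norm_one {q : ℕ} (hs : ∀ x : K, star x = x ^ q) (hn : 3 ≤ n)
    {M : Matrix (Fin n) (Fin n) K} (hM : M ∈ Matrix.unitaryGroup (Fin n) K) {l0 : K}
    (hR : ∀ i i' j j', (M - l0 • (1 : Matrix (Fin n) (Fin n) K)) i j *
      (M - l0 • (1 : Matrix (Fin n) (Fin n) K)) i' j' =
      (M - l0 • (1 : Matrix (Fin n) (Fin n) K)) i j' *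
      (M - l0 • (1 : Matrix (Fin n) (Fin n) K)) i' j) : star l0 * l0 = 1 := by
  obtain ⟨R, hRd⟩ : ∃ R, R = M - l0 • (1 : Matrix (Fin n) (Fin n) K) := ⟨_, rfl⟩
  rw [← hRd] at hR
  have hMR : ∀ v, M *ᵥ v = R *ᵥ v + l0 • v := by
    intro v
    rw [hRd, Matrix.sub_mulVec, Matrix.smul_mulVec, Matrix.one_mulVec, sub_add_cancel]
  by_cases hR0 : R = 0
  · have h1 := eig_pair hM (l0 := l0) (v := Pi.single ⟨0, by omega⟩ 1)
      (v' := Pi.single ⟨0, by omega⟩ 1) (by rw [hMR, hR0, Matrix.zero_mulVec, zero_add])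
      (by rw [hMR, hR0, Matrix.zero_mulVec, zero_add])
    rw [dotProduct_single] at h1
    simp only [Pi.star_apply, Pi.single_eq_same, star_one, mul_one] at h1
    linear_combination -h1
  obtain ⟨i0, j0, h0⟩ : ∃ i0 j0, R i0 j0 ≠ 0 := by
    by_contra hcon
    push Not at hcon
    exact hR0 (Matrix.ext fun i j => hcon i j)
  have hker : ∀ v : Fin n → K, R i0 ⬝ᵥ v = 0 → M *ᵥ v = l0 • v := by
    intro v hv
    rw [hMR]
    have h1 : R *ᵥ v = 0 := by
      funext i
      have h2 : R i0 j0 * (R *ᵥ v) i = 0 := by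
        rw [Matrix.mulVec, dotProduct, Finset.mul_sum]
        have h3 : ∀ j, R i0 j0 * (R i j * v j) = R i j0 * (R i0 j * v j) := by
          intro j
          linear_combination v j * hR i0 i j0 j
        rw [Finset.sum_congr rfl (fun j _ => h3 j), ← Finset.mul_sum]
        have h4 : ∑ j, R i0 j * v j = 0 := hv
        rw [h4, mul_zero]
      rcases mul_eq_zero.1 h2 with h3 | h3
      · exact absurd h3 h0
      · exact h3
    rw [h1, zero_add]
  by_contra hne
  have hne' : 1 - star l0 * l0 ≠ 0 := fun h => hne (sub_eq_zero.1 h).symm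
  have hiso : ∀ v v' : Fin n → K, R i0 ⬝ᵥ v = 0 → R i0 ⬝ᵥ v' = 0 → star v ⬝ᵥ v' = 0 := by
    intro v v' hv hv'
    rcases mul_eq_zero.1 (eig_pair hM (hker v hv) (hker v' hv')) with h | h
    · exact absurd h hne'
    · exact h
  obtain ⟨e, he⟩ : ∃ e : Fin n → (Fin n → K), e = fun j => Pi.single j (R i0 j0) -
      Pi.single j0 (R i0 j) := ⟨_, rfl⟩
  have hek : ∀ j, R i0 ⬝ᵥ e j = 0 := by
    intro j
    rw [he, dotProduct_sub, dotProduct_single, dotProduct_single]
    ring
  have hstar : ∀ (j : Fin n) (x : K), star (Pi.single j x : Fin n → K) = Pi.single j (star x) := by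
    intro j x
    funext i
    by_cases hij : i = j
    · subst hij
      simp
    · simp [Pi.single_eq_of_ne hij]
  have hpair : ∀ j k, star (e j) ⬝ᵥ e k = star (R i0 j0) * e k j - star (R i0 j) * e k j0 := by
    intro j k
    have h1 : star (e j) = Pi.single j (star (R i0 j0)) - Pi.single j0 (star (R i0 j)) := by
      rw [he, star_sub, hstar, hstar]
    rw [h1, sub_dotProduct, single_dotProduct, single_dotProduct]
  -- two more indices
  obtain ⟨j, hj⟩ : ∃ j : Fin n, j ≠ j0 := by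
    by_contra hcon
    push Not at hcon
    have h1 := hcon ⟨0, by omega⟩
    have h2 := hcon ⟨1, by omega⟩
    have h3 := congrArg Fin.val (h1.trans h2.symm)
    simp at h3
  obtain ⟨k, hk, hkj⟩ : ∃ k : Fin n, k ≠ j0 ∧ k ≠ j := by
    by_contra hcon
    push Not at hcon
    have h1 : (Finset.univ : Finset (Fin n)) ⊆ {j0, j} := by
      intro k _
      by_cases hk : k = j0
      · simp [hk]
      · simp [hcon k hk]
    have h2 := Finset.card_le_card h1
    rw [Finset.card_univ, Fintype.card_fin] at h2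
    have h3 := Finset.card_le_two (a := j0) (b := j)
    omega
  have e1 : ∀ j k, k ≠ j0 → k ≠ j → j ≠ j0 → star (e j) ⬝ᵥ e k = star (R i0 j) * R i0 k := by
    intro j k hk hkj hj
    rw [hpair, he]
    simp only [Pi.sub_apply, Pi.single_eq_of_ne hkj.symm, Pi.single_eq_of_ne hj,
      Pi.single_eq_of_ne hk.symm, Pi.single_eq_same]
    ring
  have e2 : ∀ j, j ≠ j0 → star (e j) ⬝ᵥ e j = star (R i0 j0) * R i0 j0 + star (R i0 j) * R i0 j := by
    intro j hj
    rw [hpair, he]
    simp only [Pi.sub_apply, Pi.single_eq_of_ne hj, Pi.single_eq_of_ne hj.symm,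
      Pi.single_eq_same]
    ring
  have hN : ∀ x : K, star x * x = 0 → x = 0 := by
    intro x hx
    rw [hs, ← pow_succ] at hx
    exact pow_eq_zero_iff (by omega) |>.1 hx
  have fin : ∀ j, j ≠ j0 → R i0 j = 0 → False := by
    intro j hj h
    have h1 := hiso _ _ (hek j) (hek j)
    rw [e2 j hj, h, mul_zero, add_zero] at h1
    exact h0 (hN _ h1)
  have h1 := hiso _ _ (hek j) (hek k)
  rw [e1 j k hk hkj hj] at h1
  rcases mul_eq_zero.1 h1 with h2 | h2
  · exact fin j hj (star_eq_zero.1 h2)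
  · exact fin k hk h2

end

theorem stmtA3g : StmtA3g.{u} := by
  intro K _ _ _ q hq hK hs p hpp hpq n hdiv hn h33 h22 h24 E hEL hE hEp
  classical
  have hp := hpp.out
  have hpn : p ∣ n := by
    refine dvd_trans ?_ hdiv
    refine dvd_pow_self p ?_
    have := one_le_padicValNat_of_dvd (by omega : q + 1 ≠ 0) hpq
    omega
  have hn3 : 3 ≤ n := by
    have h1 := hp.two_le
    have h2 := Nat.le_of_dvd hn hpn
    by_cases h3 : p = 2
    · have h4 : n ≠ 2 := fun h => h22 ⟨h3, h⟩
      omega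
    · omega
  have hker : ∀ g : GU K n, QuotientGroup.mk' (Subgroup.center (GU K n)) g = 1 ↔
      ∃ c : K, (rhoU K n g : Matrix (Fin n) (Fin n) K) = c • 1 := by
    intro g
    rw [QuotientGroup.mk'_apply, QuotientGroup.eq_one_iff, center_iff (by omega) hK hs hn]
    rfl
  let _ := cg E hE
  let F := AlgebraicClosure K
  let φ : K →+* F := algebraMap K F
  have hpF : (p : F) ≠ 0 := by
    intro h
    apply cast_ne_zero hK hpq
    apply φ.injective
    rw [map_natCast, map_zero, h]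
  have hne : Nonempty (Fin n) := ⟨⟨0, hn⟩⟩
  obtain ⟨k, m, hk, hm, hkm, hc⟩ | h | ⟨x, la, ζ, u, f, hζ, hζ1, hla, hu, hfu, hP⟩ :=
    card_refine hpF n E (Fin n → F) (by simp [F]) (by omega)
      (fun x => Subtype.ext (hEp x x.2))
      (toPR (QuotientGroup.mk' _) (QuotientGroup.mk'_surjective _) (rhoU K n) hker E hE)
  · exact hc.trans (Nat.pow_le_pow_right hp.pos (num_a3g hp hpn h33 h22 h24 hn hk hm hkm))
  · exact h
  exfalso
  -- the lift with determinant one
  obtain ⟨g', hg', hgx⟩ : ∃ g' ∈ SU K n, QuotientGroup.mk' (Subgroup.center (GU K n)) g' = x := by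
    have h1 := hEL x.2
    exact h1
  set g := Classical.choose (QuotientGroup.mk'_surjective (Subgroup.center (GU K n)) (x : PGU K n))
    with hgdef
  have hg : QuotientGroup.mk' (Subgroup.center (GU K n)) g = x :=
    Classical.choose_spec (QuotientGroup.mk'_surjective (Subgroup.center (GU K n)) (x : PGU K n))
  have hdet : (g' : Matrix (Fin n) (Fin n) K).det = 1 := hg'
  obtain ⟨c, hc⟩ : ∃ c : K, (g : Matrix (Fin n) (Fin n) K) = c • (g' : Matrix (Fin n) (Fin n) K) := by
    obtain ⟨c, hc⟩ := (hker (g * g'⁻¹)).1 (by rw [map_mul, map_inv, hg, hgx, mul_inv_cancel])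
    refine ⟨c, ?_⟩
    have h1 : rhoU K n g = rhoU K n (g * g'⁻¹) * rhoU K n g' := by
      rw [← map_mul, inv_mul_cancel_right]
    have h2 := congrArg (fun u : Matrix.GeneralLinearGroup (Fin n) K => (u : Matrix (Fin n) (Fin n) K)) h1
    simp only [Units.val_mul] at h2
    rw [hc, smul_mul_assoc, one_mul] at h2
    exact h2
  have hc0 : c ≠ 0 := by
    rintro rfl
    rw [zero_smul] at hc
    have h1 := Matrix.mem_unitaryGroup_iff.1 g.2
    rw [hc, zero_mul] at h1
    exact zero_ne_one h1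
  have hPx : ∀ v : Fin n → F, ((g : Matrix (Fin n) (Fin n) K).map φ) *ᵥ v = la • v + f v • u := by
    intro v
    have h1 := hP v
    rw [← Matrix.toLin'_apply]
    exact h1
  have hφc : φ c ≠ 0 := (map_ne_zero φ).2 hc0
  set la' : F := (φ c)⁻¹ * la with hla'
  set w : Fin n → F := fun j => (φ c)⁻¹ * f (Pi.single j 1) with hw
  have hmat : (g' : Matrix (Fin n) (Fin n) K).map φ =
      la' • (1 : Matrix (Fin n) (Fin n) F) + vecMulVec u w := by
    ext i j
    have h1 := congrFun (hPx (Pi.single j 1)) i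
    rw [Matrix.mulVec_single_one, hc] at h1
    simp only [Matrix.col_apply, Matrix.map_apply, Matrix.smul_apply, smul_eq_mul, map_mul,
      Pi.add_apply, Pi.smul_apply] at h1
    rw [Matrix.map_apply, Matrix.add_apply, Matrix.smul_apply, vecMulVec_apply, smul_eq_mul, hla',
      hw]
    have h2 : (Pi.single j (1 : F) : Fin n → F) i = (1 : Matrix (Fin n) (Fin n) F) i j := by
      rw [Matrix.one_apply, Pi.single_apply]
    rw [h2] at h1
    apply mul_left_cancel₀ hφc
    rw [h1]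
    have h3 : φ c * ((φ c)⁻¹ * la * (1 : Matrix (Fin n) (Fin n) F) i j +
        u i * ((φ c)⁻¹ * f (Pi.single j 1))) = (φ c * (φ c)⁻¹) *
        (la * (1 : Matrix (Fin n) (Fin n) F) i j + f (Pi.single j 1) * u i) := by ring
    rw [h3, mul_inv_cancel₀ hφc, one_mul]
  have hwu : w ⬝ᵥ u = la' * (ζ - 1) := by
    have h1 : f u = ∑ j, u j * f (Pi.single j 1) := by
      conv_lhs => rw [← Finset.univ_sum_single u]
      rw [map_sum]
      refine Finset.sum_congr rfl fun j _ => ?_
      have h2 : (Pi.single j (u j) : Fin n → F) = u j • Pi.single j (1 : F) := by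
        rw [← Pi.single_smul, smul_eq_mul, mul_one]
      rw [h2, map_smul, smul_eq_mul]
    rw [hla', mul_assoc, ← hfu, h1, dotProduct, Finset.mul_sum]
    refine Finset.sum_congr rfl fun j _ => ?_
    rw [hw]
    ring
  have hla0 : la' ≠ 0 := mul_ne_zero (inv_ne_zero hφc) hla
  obtain ⟨l0, hl0⟩ := la_mem φ hn3 hmat
  have hdet2 : la' ^ n * ζ = 1 := by
    rw [← det_la hla0 hwu, ← hmat]
    have h1 : ((g' : Matrix (Fin n) (Fin n) K).map φ).det =
        φ (g' : Matrix (Fin n) (Fin n) K).det := (RingHom.map_det φ _).symm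
    rw [h1, hdet, map_one]
  -- `ζ` in `K`
  obtain ⟨z0, hz0⟩ : ∃ z0 : K, φ z0 = ζ := by
    refine ⟨(l0 ^ n)⁻¹, ?_⟩
    rw [map_inv₀, map_pow, hl0]
    exact (eq_inv_of_mul_eq_one_right hdet2).symm
  have hl00 : l0 ≠ 0 := by
    rintro rfl
    rw [map_zero] at hl0
    exact hla0 hl0.symm
  have e1 : l0 ^ n * z0 = 1 := φ.injective (by rw [map_mul, map_pow, hl0, hz0, hdet2, map_one])
  have e2 : z0 ^ p = 1 := φ.injective (by rw [map_pow, hz0, hζ, map_one])
  have e3 : z0 ≠ 1 := by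
    rintro rfl
    rw [map_one] at hz0
    exact hζ1 hz0.symm
  have e8 : l0 ^ (q + 1) = 1 := by
    have hent : ∀ i j, φ (((g' : Matrix (Fin n) (Fin n) K) -
        l0 • (1 : Matrix (Fin n) (Fin n) K)) i j) = u i * w j := by
      intro i j
      have h1 := congrFun (congrFun hmat i) j
      rw [Matrix.map_apply, Matrix.add_apply, Matrix.smul_apply, smul_eq_mul, vecMulVec_apply] at h1
      rw [Matrix.sub_apply, Matrix.smul_apply, smul_eq_mul, map_sub, map_mul, h1, hl0,
        Matrix.one_apply, Matrix.one_apply]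
      split_ifs
      · rw [map_one]
        ring
      · rw [map_zero]
        ring
    have h1 := norm_one hs hn3 (M := (g' : Matrix (Fin n) (Fin n) K)) g'.2 (l0 := l0) (by
      intro i i' j j'
      apply φ.injective
      rw [map_mul, map_mul, hent, hent, hent, hent]
      ring)
    rw [hs, ← pow_succ] at h1
    exact h1
  -- the contradiction
  obtain ⟨r, hr⟩ : p ^ padicValNat p (q + 1) ∣ q + 1 := pow_padicValNat_dvd
  have hpr : ¬ p ∣ r := by
    rintro ⟨s, rfl⟩
    have h1 : p ^ (padicValNat p (q + 1) + 1) ∣ q + 1 := ⟨s, by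
      rw [pow_succ, mul_assoc]
      exact hr⟩
    exact pow_succ_padicValNat_not_dvd (by omega : q + 1 ≠ 0) h1
  have e9 : (l0 ^ n) ^ r = 1 := by
    obtain ⟨s, hs⟩ := hdiv
    rw [← pow_mul]
    have h1 : n * r = (q + 1) * s := by
      rw [hs]
      conv_rhs => rw [hr]
      ring
    rw [h1, pow_mul, e8, one_pow]
  have e10 : z0 ^ r = 1 := by
    have h1 : (l0 ^ n * z0) ^ r = 1 := by rw [e1, one_pow]
    rwa [mul_pow, e9, one_mul] at h1
  have e11 := pow_gcd_eq_one.2 ⟨e2, e10⟩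
  rw [((Nat.Prime.coprime_iff_not_dvd hp).2 hpr).gcd_eq_one, pow_one] at e11
  exact e3 e11

/-- the old form -/
theorem stmtA3' : StmtA3.{u} := by
  intro K _ _ _ q hq hK hs p hpp hpq hp2 n hdiv hn h33 E hEL hE hEp
  exact stmtA3g K q hq hK hs p hpq n hdiv hn h33 (fun h => hp2 h.1) (fun h => hp2 h.1) E hEL hE hEp

end Vale.Agent.P240.R2.H979
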