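import Vale.Agent.P240.R2.H775.AutStmts
import Vale.Agent.P240.R2.H472.Nrm
import Vale.Agent.P240.R2.H727.M4

/-!
`StmtB2b`, `StmtB2c`: the group `SU_2(q)` is generated by its unipotent elements.
-/

set_option linter.all false

open Matrix

namespace Vale.Agent.P240.R2.H979

open Vale.Agent.P240.R2.AS Vale.Agent.P240.R2.H775.Aut

universe u

section
variable {K : Type u} [Field K] [StarRing K]

lemma sum_norm_ne {q : ℕ} (hs : ∀ x : K, star x = x ^ q) {x : K} (h : star x * x = 0) : x = 0 := by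
  rw [hs, ← pow_succ] at h
  exact pow_eq_zero_iff (by omega) |>.1 h

/-- elements of `SU_2` -/
lemma su2_entries {g : GU K 2} (hg : g ∈ SU K 2) :
    g.1 1 1 = star (g.1 0 0) ∧ g.1 1 0 = -star (g.1 0 1) := by
  have hdet : g.1.det = 1 := hg
  have h1 : g.1 * star g.1 = 1 := Matrix.mem_unitaryGroup_iff.1 g.2
  have h2 : g.1.adjugate * g.1 = 1 := by rw [Matrix.adjugate_mul, hdet, one_smul]
  have h3 : g.1.adjugate = star g.1 := left_inv_eq_right_inv h2 h1
  rw [Matrix.adjugate_fin_two] at h3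
  have e1 := congrFun (congrFun h3 0) 0
  have e2 := congrFun (congrFun h3 1) 0
  simp only [Matrix.star_apply, Matrix.of_apply, Matrix.cons_val', Matrix.cons_val_zero,
    Matrix.cons_val_one, Matrix.cons_val_fin_one] at e1 e2
  exact ⟨e1, by rw [← e2, neg_neg]⟩

/-- an element of `SU_2` that fixes a nonzero vector -/
lemma unip {g : Matrix (Fin 2) (Fin 2) K} (hdet : g.det = 1) {v : Fin 2 → K} (hv : v ≠ 0)
    (h : g *ᵥ v = v) : (g - 1) * (g - 1) = 0 := by
  have h1 : (g - 1).det = 0 := by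
    rw [← Matrix.exists_mulVec_eq_zero_iff]
    exact ⟨v, hv, by rw [Matrix.sub_mulVec, h, Matrix.one_mulVec, sub_self]⟩
  rw [Matrix.det_fin_two] at hdet h1
  simp only [Matrix.sub_apply, Matrix.one_apply_eq, Matrix.one_apply_ne (show (0 : Fin 2) ≠ 1 by decide),
    Matrix.one_apply_ne (show (1 : Fin 2) ≠ 0 by decide), sub_zero] at h1
  have htr : g 0 0 + g 1 1 = 2 := by linear_combination hdet - h1
  ext i j
  rw [Matrix.mul_apply, Fin.sum_univ_two]
  fin_cases i <;> fin_cases j
  · simp
    linear_combination g 0 0 * htr - hdet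
  · simp
    linear_combination g 0 1 * htr
  · simp
    linear_combination g 1 0 * htr
  · simp
    linear_combination g 1 1 * htr - hdet

/-- powers of unipotent matrices -/
lemma unip_pow {g : Matrix (Fin 2) (Fin 2) K} (h : (g - 1) * (g - 1) = 0) (k : ℕ) :
    g ^ k = 1 + (k : K) • (g - 1) := by
  induction k with
  | zero => simp
  | succ k ih =>
    have h2 : (g - 1) * g = g - 1 := by
      have h3 : (g - 1) * g = (g - 1) * (g - 1) + (g - 1) := by
        rw [mul_sub, mul_one, sub_add_cancel]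
      rw [h3, h, zero_add]
    rw [pow_succ, ih, add_mul, one_mul, smul_mul_assoc, h2, Nat.cast_succ, add_smul, one_smul]
    abel

/-- the unitary transvections -/
def tv (la : K) (u : Fin 2 → K) : Matrix (Fin 2) (Fin 2) K := 1 + la • vecMulVec u (star u)

lemma tv_mulVec (la : K) (u w : Fin 2 → K) : tv la u *ᵥ w = w + (la * (star u ⬝ᵥ w)) • u := by
  rw [tv, Matrix.add_mulVec, Matrix.one_mulVec, Matrix.smul_mulVec, vecMulVec_mulVec, mul_smul]
  congr 2
  ext i
  simp [mul_comm]

lemma tv_mem {la : K} {u : Fin 2 → K} (hla : la + star la = 0) (hu : star u ⬝ᵥ u = 0) :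
    tv la u ∈ Matrix.unitaryGroup (Fin 2) K := by
  have h1 : star (vecMulVec u (star u)) = vecMulVec u (star u) := by
    ext i j
    rw [Matrix.star_apply, vecMulVec_apply, vecMulVec_apply, star_mul', Pi.star_apply,
      Pi.star_apply, star_star, mul_comm]
  have h2 : vecMulVec u (star u) * vecMulVec u (star u) = 0 := by
    ext i j
    rw [Matrix.mul_apply, Fin.sum_univ_two]
    rw [dotProduct, Fin.sum_univ_two] at hu
    simp only [vecMulVec_apply, Matrix.zero_apply]
    linear_combination u i * star u j * hu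
  rw [Matrix.mem_unitaryGroup_iff, tv, star_add, star_one, star_smul, h1, add_mul, one_mul,
    mul_add, mul_one, smul_mul_smul_comm, h2, smul_zero, add_zero, add_assoc, ← add_smul,
    add_comm (star la), hla, zero_smul, add_zero]

lemma tv_det {la : K} {u : Fin 2 → K} (hu : star u ⬝ᵥ u = 0) : (tv la u).det = 1 := by
  rw [dotProduct, Fin.sum_univ_two] at hu
  rw [Matrix.det_fin_two]
  simp only [tv, Matrix.add_apply, Matrix.smul_apply, smul_eq_mul, vecMulVec_apply,
    Matrix.one_apply_eq, Matrix.one_apply_ne (show (0 : Fin 2) ≠ 1 by decide),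
    Matrix.one_apply_ne (show (1 : Fin 2) ≠ 0 by decide)]
  linear_combination la * hu

lemma tv_unip {la : K} {u : Fin 2 → K} (hu : star u ⬝ᵥ u = 0) :
    (tv la u - 1) * (tv la u - 1) = 0 := by
  have h2 : vecMulVec u (star u) * vecMulVec u (star u) = 0 := by
    ext i j
    rw [Matrix.mul_apply, Fin.sum_univ_two]
    rw [dotProduct, Fin.sum_univ_two] at hu
    simp only [vecMulVec_apply, Matrix.zero_apply]
    linear_combination u i * star u j * hu
  rw [tv, add_sub_cancel_left, smul_mul_smul_comm, h2, smul_zero]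

variable {r : ℕ} {H : Subgroup (GU K 2)} (hH : ∀ g ∈ SU K 2, g ^ r = 1 → g ∈ H)

include hH

lemma unip_mem [CharP K r] {g : GU K 2} (hg : g ∈ SU K 2) (h : (g.1 - 1) * (g.1 - 1) = 0) :
    g ∈ H := by
  refine hH g hg (Subtype.ext ?_)
  show g.1 ^ r = 1
  rw [unip_pow h, CharP.cast_eq_zero, zero_smul, add_zero]

/-- the first case -/
lemma case1 [CharP K r] {g : GU K 2} (hg : g ∈ SU K 2) {v : Fin 2 → K} (hv0 : v ≠ 0)
    (hv : star v ⬝ᵥ v = 0) (hne : star v ⬝ᵥ (g.1 *ᵥ v) ≠ 0) : g ∈ H := by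
  obtain ⟨e1, e2⟩ := su2_entries hg
  have hdet : g.1.det = 1 := hg
  obtain ⟨w, hw⟩ : ∃ w, w = g.1 *ᵥ v := ⟨_, rfl⟩
  obtain ⟨c, hc⟩ : ∃ c, c = star v ⬝ᵥ w := ⟨_, rfl⟩
  rw [← hw, ← hc] at hne
  have hw0 : w 0 = g.1 0 0 * v 0 + g.1 0 1 * v 1 := by
    rw [hw, Matrix.mulVec, dotProduct, Fin.sum_univ_two]
  have hw1 : w 1 = g.1 1 0 * v 0 + g.1 1 1 * v 1 := by
    rw [hw, Matrix.mulVec, dotProduct, Fin.sum_univ_two]
  have hww : star w ⬝ᵥ w = 0 := by
    rw [hw, Matrix.star_mulVec, ← Matrix.dotProduct_mulVec, Matrix.mulVec_mulVec]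
    have h2 := Matrix.mem_unitaryGroup_iff'.1 g.2
    rw [Matrix.star_eq_conjTranspose] at h2
    rw [h2, Matrix.one_mulVec, hv]
  have hcs : star c = star w ⬝ᵥ v := by
    rw [hc, dotProduct, dotProduct, Fin.sum_univ_two, Fin.sum_univ_two]
    simp only [Pi.star_apply, star_add, star_mul', star_star]
    ring
  have hct : c + star c = 0 := by
    rw [dotProduct, Fin.sum_univ_two] at hv
    simp only [Pi.star_apply] at hv
    rw [hc, dotProduct, Fin.sum_univ_two]
    simp only [Pi.star_apply, hw0, hw1, e1, e2, star_add, star_mul', star_star, star_neg]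
    linear_combination (g.1 0 0 + star (g.1 0 0)) * hv
  obtain ⟨u, hu⟩ : ∃ u, u = w - v := ⟨_, rfl⟩
  have huu : star u ⬝ᵥ u = 0 := by
    rw [hu, star_sub, sub_dotProduct, dotProduct_sub, dotProduct_sub, hww, hv, ← hcs, ← hc]
    linear_combination -hct
  have huw : star u ⬝ᵥ w = -c := by
    rw [hu, star_sub, sub_dotProduct, hww, ← hc, zero_sub]
  have hla : c⁻¹ + star c⁻¹ = 0 := by
    rw [star_inv₀]
    have hcs0 : star c ≠ 0 := star_ne_zero.2 hne
    field_simp
    linear_combination hct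
  obtain ⟨t, ht⟩ : ∃ t : GU K 2, t = ⟨tv c⁻¹ u, tv_mem hla huu⟩ := ⟨_, rfl⟩
  have htS : t ∈ SU K 2 := by
    rw [ht]
    exact tv_det huu
  have htH : t ∈ H := unip_mem hH htS (by rw [ht]; exact tv_unip huu)
  have htw : t.1 *ᵥ w = v := by
    rw [ht]
    show tv c⁻¹ u *ᵥ w = v
    rw [tv_mulVec, huw, mul_neg, inv_mul_cancel₀ hne, neg_smul, one_smul, hu]
    abel
  have h1 : t * g ∈ H := by
    refine unip_mem hH (mul_mem htS hg) (unip (v := v) ?_ hv0 ?_)
    · have := mul_mem htS hg
      exact this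
    · show (t.1 * g.1) *ᵥ v = v
      rw [← Matrix.mulVec_mulVec, ← hw, htw]
  have h2 : g = t⁻¹ * (t * g) := by group
  rw [h2]
  exact mul_mem (inv_mem htH) h1

end

theorem stmtB2c : StmtB2c.{u} := by
  intro K _ _ _ q hq hF a b τ σ h
  have hK : Fintype.card K = q ^ 2 := by rw [← Nat.card_eq_fintype_card]; exact hF.card
  have hab : a = b := by
    have h1 := (h 0 1 (by simp)).2
    simpa using h1
  refine ⟨?_, hab⟩
  apply Subtype.ext
  ext x
  obtain ⟨y, hy⟩ : ∃ y : K, star y * y = 1 - x * star x := by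
    by_cases h0 : 1 - x * star x = 0
    · exact ⟨0, by rw [h0, mul_zero]⟩
    · exact H472.exists_norm hK hF.star h0 (by
        rw [star_sub, star_one, star_mul', star_star, mul_comm])
  exact (h x y (by rw [mul_comm y, hy]; ring)).1

theorem stmtB2b : StmtB2b.{u} := by
  intro K _ _ _ q r hq hF hr hchar H hH g hg
  have hK : Fintype.card K = q ^ 2 := by rw [← Nat.card_eq_fintype_card]; exact hF.card
  -- isotropic vectors
  obtain ⟨s, hs⟩ := H472.exists_norm hK hF.star (c := (-1 : K)) (neg_ne_zero.2 one_ne_zero)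
    (by rw [star_neg, star_one])
  obtain ⟨ζ, hζ1, hζ⟩ := H727.exists_norm_one (by omega) hF.card hF.star
  obtain ⟨la, hla0, hla⟩ : ∃ la : K, la ≠ 0 ∧ la + star la = 0 := by
    have h1 : ∃ x : K, star x ≠ x := by
      by_contra hcon
      push Not at hcon
      have h2 : ζ * ζ = 1 := by
        have := hζ
        rwa [hcon] at this
      -- all elements are fixed: too few
      have h3 : Fintype.card K ≤ q := by
        classical
        have h4 : (Finset.univ : Finset K) ⊆ (Polynomial.X ^ q - Polynomial.X : Polynomial K).roots.toFinset := by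
          intro x _
          rw [Multiset.mem_toFinset, Polynomial.mem_roots]
          · simp only [Polynomial.IsRoot, Polynomial.eval_sub, Polynomial.eval_pow,
              Polynomial.eval_X]
            rw [← hF.star, hcon, sub_self]
          · exact FiniteField.X_pow_card_sub_X_ne_zero K (by omega)
        have h5 := Finset.card_le_card h4
        rw [Finset.card_univ] at h5
        refine h5.trans ((Multiset.toFinset_card_le _).trans ?_)
        refine (Polynomial.card_roots' _).trans ?_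
        rw [FiniteField.X_pow_card_sub_X_natDegree_eq K (by omega)]
      rw [hK] at h3
      nlinarith
    obtain ⟨x, hx⟩ := h1
    refine ⟨x - star x, sub_ne_zero.2 (Ne.symm hx), ?_⟩
    rw [star_sub, star_star]
    ring
  obtain ⟨v, hv⟩ : ∃ v : Fin 2 → K, v = ![1, s] := ⟨_, rfl⟩
  obtain ⟨v', hv'⟩ : ∃ v' : Fin 2 → K, v' = ![1, s * ζ] := ⟨_, rfl⟩
  have hv0 : v ≠ 0 := by
    intro h
    have := congrFun h 0
    rw [hv] at this
    simp at this
  have hvv : star v ⬝ᵥ v = 0 := by
    rw [hv, dotProduct, Fin.sum_univ_two]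
    simp only [Pi.star_apply, Matrix.cons_val_zero, Matrix.cons_val_one, star_one]
    linear_combination hs
  have hvv' : star v' ⬝ᵥ v' = 0 := by
    rw [hv', dotProduct, Fin.sum_univ_two]
    simp only [Pi.star_apply, Matrix.cons_val_zero, Matrix.cons_val_one, star_one, star_mul']
    linear_combination hs + (star s * s) * hζ
  have hcross : star v' ⬝ᵥ v = 1 - star ζ := by
    rw [hv, hv', dotProduct, Fin.sum_univ_two]
    simp only [Pi.star_apply, Matrix.cons_val_zero, Matrix.cons_val_one, star_one, star_mul']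
    linear_combination star ζ * hs
  have hcross' : star v ⬝ᵥ v' = 1 - ζ := by
    rw [hv, hv', dotProduct, Fin.sum_univ_two]
    simp only [Pi.star_apply, Matrix.cons_val_zero, Matrix.cons_val_one, star_one, star_mul']
    linear_combination ζ * hs
  by_cases hne : star v ⬝ᵥ (g.1 *ᵥ v) ≠ 0
  · exact case1 hH hg hv0 hvv hne
  push Not at hne
  -- `g v` is a multiple of `v`
  obtain ⟨h, hh⟩ : ∃ h : GU K 2, h = ⟨tv la v', tv_mem hla hvv'⟩ := ⟨_, rfl⟩
  have hhS : h ∈ SU K 2 := by
    rw [hh]
    exact tv_det hvv'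
  have hhH : h ∈ H := unip_mem hH hhS (by rw [hh]; exact tv_unip hvv')
  obtain ⟨w, hw⟩ : ∃ w, w = g.1 *ᵥ v := ⟨_, rfl⟩
  rw [← hw] at hne
  obtain ⟨μ, hμ⟩ : ∃ μ : K, w = μ • v := by
    refine ⟨w 0, ?_⟩
    rw [hv, dotProduct, Fin.sum_univ_two] at hne
    simp only [Pi.star_apply, Matrix.cons_val_zero, Matrix.cons_val_one, star_one, one_mul] at hne
    ext i
    fin_cases i
    · simp [hv]
    · simp only [Pi.smul_apply, smul_eq_mul, hv]
      simp only [Fin.mk_one, Matrix.cons_val_one, Matrix.cons_val_fin_one]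
      linear_combination w 1 * hs - s * hne
  have hμ0 : μ ≠ 0 := by
    rintro rfl
    rw [zero_smul] at hμ
    rw [hμ] at hw
    have h1 := congrArg (fun x => (star g.1) *ᵥ x) hw
    simp only [Matrix.mulVec_zero, Matrix.mulVec_mulVec] at h1
    rw [Matrix.mem_unitaryGroup_iff'.1 g.2, Matrix.one_mulVec] at h1
    exact hv0 h1.symm
  have h1 : h * g ∈ H := by
    refine case1 hH (mul_mem hhS hg) hv0 hvv ?_
    have h2 : (h * g).1 *ᵥ v = μ • (v + (la * (1 - star ζ)) • v') := by
      show (h.1 * g.1) *ᵥ v = _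
      rw [← Matrix.mulVec_mulVec, ← hw, hμ, Matrix.mulVec_smul, hh]
      show μ • (tv la v' *ᵥ v) = _
      rw [tv_mulVec, hcross]
    rw [h2, dotProduct_smul, dotProduct_add, hvv, dotProduct_smul, hcross', zero_add, smul_eq_mul,
      smul_eq_mul]
    refine mul_ne_zero hμ0 (mul_ne_zero (mul_ne_zero hla0 ?_) ?_)
    · intro h3
      apply hζ1
      have h4 := congrArg star (sub_eq_zero.1 h3)
      rw [star_one, star_star] at h4
      exact h4.symm
    · intro h3
      exact hζ1 (sub_eq_zero.1 h3).symm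
  have h2 : g = h⁻¹ * (h * g) := by group
  rw [h2]
  exact mul_mem (inv_mem hhH) h1

end Vale.Agent.P240.R2.H979
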