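import Vale.Agent.P240.R2.H275.Defs

/-!
Nonzero cycles of graphs: groups of `p`-rank two.
-/

set_option linter.all false

namespace Vale.Agent.P240.R2.H979

open Vale.Agent.P240 Vale.Agent.P240.K Vale.Agent.P240.R2.H275 Module
open scoped Classical

section
variable {𝕜 : Type*} [Field 𝕜]

/-- the boundary of an edge -/
lemma bd_pair {α : Type*} (a b : α) : bd (Finsupp.single [a, b] (1 : 𝕜)) =
    Finsupp.single [b] 1 - Finsupp.single [a] 1 := by
  rw [bd, Finsupp.linearCombination_single, one_smul]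
  simp [Finset.sum_range_succ, sub_eq_add_neg]

/-- a finite bipartite graph with all degrees at least `2` has a nonzero cycle -/
theorem graph_cycle {P L : Type*} [Fintype P] [Fintype L] (R : P → L → Prop)
    (hP : ∀ a, ∃ b b', b ≠ b' ∧ R a b ∧ R a b') (hL : ∀ b, ∃ a a', a ≠ a' ∧ R a b ∧ R a' b)
    (hne : Nonempty P) : ∃ z : {e : P × L // R e.1 e.2} → 𝕜, z ≠ 0 ∧
      (∀ a, (∑ e : {e : P × L // R e.1 e.2}, if e.1.1 = a then z e else 0) = 0) ∧
      ∀ b, (∑ e : {e : P × L // R e.1 e.2}, if e.1.2 = b then z e else 0) = 0 := by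
  -- the number of edges
  have hcard1 : 2 * Fintype.card P ≤ Fintype.card {e : P × L // R e.1 e.2} := by
    choose f g hfg hf hg using hP
    have h1 := Fintype.card_le_of_injective (fun x : P × Bool =>
      (⟨(x.1, if x.2 then f x.1 else g x.1), by
        dsimp only
        split_ifs
        · exact hf _
        · exact hg _⟩ : {e : P × L // R e.1 e.2})) (by
      rintro ⟨a, e⟩ ⟨a', e'⟩ h
      have h2 : (a, if e then f a else g a) = (a', if e' then f a' else g a') :=
        congrArg Subtype.val h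
      obtain ⟨rfl, h3⟩ := Prod.mk.inj h2
      cases e <;> cases e'
      · rfl
      · exact absurd (by simpa using h3) (hfg a).symm
      · exact absurd (by simpa using h3) (hfg a)
      · rfl)
    rw [Fintype.card_prod, Fintype.card_bool] at h1
    omega
  have hcard2 : 2 * Fintype.card L ≤ Fintype.card {e : P × L // R e.1 e.2} := by
    choose f g hfg hf hg using hL
    have h1 := Fintype.card_le_of_injective (fun x : L × Bool =>
      (⟨(if x.2 then f x.1 else g x.1, x.1), by
        dsimp only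
        split_ifs
        · exact hf _
        · exact hg _⟩ : {e : P × L // R e.1 e.2})) (by
      rintro ⟨a, e⟩ ⟨a', e'⟩ h
      have h2 : ((if e then f a else g a), a) = ((if e' then f a' else g a'), a') :=
        congrArg Subtype.val h
      obtain ⟨h3, rfl⟩ := Prod.mk.inj h2
      cases e <;> cases e'
      · rfl
      · exact absurd (by simpa using h3) (hfg a).symm
      · exact absurd (by simpa using h3) (hfg a)
      · rfl)
    rw [Fintype.card_prod, Fintype.card_bool] at h1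
    omega
  -- the linear map
  let Φ : ({e : P × L // R e.1 e.2} → 𝕜) →ₗ[𝕜] (P ⊕ L → 𝕜) :=
    { toFun := fun z => Sum.elim
        (fun a => ∑ e : {e : P × L // R e.1 e.2}, if e.1.1 = a then z e else 0)
        (fun b => ∑ e : {e : P × L // R e.1 e.2}, if e.1.2 = b then z e else 0)
      map_add' := by
        intro x y
        funext t
        cases t <;> simp [← Finset.sum_add_distrib, ← ite_add_zero]
      map_smul' := by
        intro c x
        funext t
        cases t <;> simp [Finset.mul_sum] }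
  let ℓ : (P ⊕ L → 𝕜) →ₗ[𝕜] 𝕜 :=
    { toFun := fun y => ∑ a : P, y (Sum.inl a) - ∑ b : L, y (Sum.inr b)
      map_add' := by
        intro x y
        simp [Finset.sum_add_distrib]
        ring
      map_smul' := by
        intro c x
        simp [Finset.mul_sum, mul_sub] }
  have hΦ : ∀ z, ℓ (Φ z) = 0 := by
    intro z
    show ∑ a : P, (∑ e : {e : P × L // R e.1 e.2}, if e.1.1 = a then z e else 0) -
      ∑ b : L, (∑ e : {e : P × L // R e.1 e.2}, if e.1.2 = b then z e else 0) = 0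
    rw [Finset.sum_comm, Finset.sum_comm (s := (Finset.univ : Finset L))]
    simp
  have hker : LinearMap.ker ℓ ≠ ⊤ := by
    intro h
    obtain ⟨a⟩ := hne
    have h1 : ℓ (Pi.single (Sum.inl a) 1) = 0 := by
      rw [← LinearMap.mem_ker, h]
      trivial
    have h2 : ℓ (Pi.single (Sum.inl a) (1 : 𝕜)) = 1 := by
      show ∑ c : P, (Pi.single (Sum.inl a) (1 : 𝕜) : P ⊕ L → 𝕜) (Sum.inl c) -
        ∑ b : L, (Pi.single (Sum.inl a) (1 : 𝕜) : P ⊕ L → 𝕜) (Sum.inr b) = 1
      simp [Pi.single_apply]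
    rw [h2] at h1
    exact one_ne_zero h1
  have hfin : finrank 𝕜 (LinearMap.ker ℓ) < finrank 𝕜 ({e : P × L // R e.1 e.2} → 𝕜) := by
    have h1 := Submodule.finrank_lt hker
    rw [Module.finrank_fintype_fun_eq_card, Fintype.card_sum] at h1
    rw [Module.finrank_fintype_fun_eq_card]
    omega
  have h1 := LinearMap.ker_ne_bot_of_finrank_lt (f := Φ.codRestrict (LinearMap.ker ℓ) hΦ) hfin
  obtain ⟨z, hz, hz0⟩ := (Submodule.ne_bot_iff _).1 h1
  have hz1 : Φ z = 0 := by
    rw [LinearMap.mem_ker] at hz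
    exact congrArg Subtype.val hz
  exact ⟨z, hz0, fun a => congrFun hz1 (Sum.inl a), fun b => congrFun hz1 (Sum.inr b)⟩

/-- a nonzero cycle on chains with two terms -/
theorem poset_cycle {α : Type*} [Preorder α] [Finite α] (P L : α → Prop)
    (hP : ∀ a, P a → ∃ b b', b ≠ b' ∧ (L b ∧ a < b) ∧ (L b' ∧ a < b'))
    (hL : ∀ b, L b → ∃ a a', a ≠ a' ∧ (P a ∧ a < b) ∧ (P a' ∧ a' < b)) (hne : ∃ a, P a) :
    ∃ c : List α →₀ 𝕜, IsChain 2 c ∧ bd c = 0 ∧ c ≠ 0 := by
  have := Fintype.ofFinite {a // P a}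
  have := Fintype.ofFinite {b // L b}
  obtain ⟨z, hz0, hz1, hz2⟩ := graph_cycle (𝕜 := 𝕜) (P := {a // P a}) (L := {b // L b})
    (fun a b => a.1 < b.1) (fun a => by
      obtain ⟨b, b', h1, ⟨h2, h3⟩, h4, h5⟩ := hP a.1 a.2
      exact ⟨⟨b, h2⟩, ⟨b', h4⟩, fun h => h1 (congrArg Subtype.val h), h3, h5⟩) (fun b => by
      obtain ⟨a, a', h1, ⟨h2, h3⟩, h4, h5⟩ := hL b.1 b.2
      exact ⟨⟨a, h2⟩, ⟨a', h4⟩, fun h => h1 (congrArg Subtype.val h), h3, h5⟩) (by
      obtain ⟨a, ha⟩ := hne
      exact ⟨⟨a, ha⟩⟩)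
  let Ed : Type _ := {e : {a // P a} × {b // L b} // e.1.1 < e.2.1}
  let g : Ed → List α := fun e => [e.1.1.1, e.1.2.1]
  have hg : Function.Injective g := by
    intro e e' h
    have h1 : [e.1.1.1, e.1.2.1] = [e'.1.1.1, e'.1.2.1] := h
    simp only [List.cons.injEq, and_true] at h1
    exact Subtype.ext (Prod.ext (Subtype.ext h1.1) (Subtype.ext h1.2))
  let c : List α →₀ 𝕜 := ∑ e : Ed, z e • Finsupp.single (g e) (1 : 𝕜)
  have hc : ∀ t, c t = ∑ e : Ed, z e * (if g e = t then 1 else 0) := by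
    intro t
    simp only [c, Finsupp.coe_finset_sum, Finset.sum_apply, Finsupp.smul_apply, smul_eq_mul,
      Finsupp.single_apply]
  refine ⟨c, ?_, ?_, ?_⟩
  · intro t ht
    rw [Finsupp.mem_support_iff, hc] at ht
    obtain ⟨e, -, he⟩ := Finset.exists_ne_zero_of_sum_ne_zero ht
    have h1 : g e = t := by
      by_contra h
      rw [if_neg h, mul_zero] at he
      exact he rfl
    subst h1
    refine ⟨rfl, ?_⟩
    show List.Pairwise (· < ·) [e.1.1.1, e.1.2.1]
    simp [e.2]
  · show bd (∑ e : Ed, z e • Finsupp.single (g e) (1 : 𝕜)) = 0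
    have h1 : ∀ e : Ed, bd (z e • Finsupp.single (g e) (1 : 𝕜)) =
        z e • Finsupp.single [e.1.2.1] (1 : 𝕜) - z e • Finsupp.single [e.1.1.1] (1 : 𝕜) := by
      intro e
      rw [map_smul, bd_pair, smul_sub]
    rw [map_sum, Finset.sum_congr rfl (fun e _ => h1 e), Finset.sum_sub_distrib]
    have h2 : ∑ e : Ed, z e • Finsupp.single [e.1.2.1] (1 : 𝕜) = 0 := by
      calc ∑ e : Ed, z e • Finsupp.single [e.1.2.1] (1 : 𝕜)
          = ∑ e : Ed, ∑ b : {b // L b}, (if e.1.2 = b then z e else 0) •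
              Finsupp.single [b.1] (1 : 𝕜) := by
            refine Finset.sum_congr rfl fun e _ => ?_
            simp only [ite_smul, zero_smul, Finset.sum_ite_eq, Finset.mem_univ, if_true]
        _ = ∑ b : {b // L b}, (∑ e : Ed, if e.1.2 = b then z e else 0) •
              Finsupp.single [b.1] (1 : 𝕜) := by
            rw [Finset.sum_comm]
            simp only [Finset.sum_smul]
        _ = 0 := Finset.sum_eq_zero fun b _ => by
            rw [show (∑ e : Ed, if e.1.2 = b then z e else 0) = 0 by convert hz2 b, zero_smul]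
    have h3 : ∑ e : Ed, z e • Finsupp.single [e.1.1.1] (1 : 𝕜) = 0 := by
      calc ∑ e : Ed, z e • Finsupp.single [e.1.1.1] (1 : 𝕜)
          = ∑ e : Ed, ∑ b : {b // P b}, (if e.1.1 = b then z e else 0) •
              Finsupp.single [b.1] (1 : 𝕜) := by
            refine Finset.sum_congr rfl fun e _ => ?_
            simp only [ite_smul, zero_smul, Finset.sum_ite_eq, Finset.mem_univ, if_true]
        _ = ∑ b : {b // P b}, (∑ e : Ed, if e.1.1 = b then z e else 0) •
              Finsupp.single [b.1] (1 : 𝕜) := by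
            rw [Finset.sum_comm]
            simp only [Finset.sum_smul]
        _ = 0 := Finset.sum_eq_zero fun b _ => by
            rw [show (∑ e : Ed, if e.1.1 = b then z e else 0) = 0 by convert hz1 b, zero_smul]
    rw [h2, h3, sub_zero]
  · intro h
    apply hz0
    funext e
    have h1 := hc (g e)
    rw [h, Finsupp.zero_apply, Finset.sum_eq_single e] at h1
    · rw [if_pos rfl, mul_one] at h1
      exact h1.symm
    · intro e' _ he'
      rw [if_neg (fun h => he' (hg h)), mul_zero]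
    · intro h
      exact absurd (Finset.mem_univ e) h

/-- **groups of `p`-rank two** in which each subgroup of order `p` is contained in two elementary
abelian groups of order `p ^ 2` -/
theorem quillenDim_of_graph {p : ℕ} [hp : Fact p.Prime] {G : Type*} [Group G] [Finite G]
    (h0 : ∃ x : G, x ≠ 1 ∧ x ^ p = 1) (h1 : ∀ E : Ap p G, Nat.card E.1 ≤ p ^ 2)
    (h2 : ∀ x : G, x ≠ 1 → x ^ p = 1 → ∃ A A' : Ap p G, A ≠ A' ∧ Nat.card A.1 = p ^ 2 ∧
      Nat.card A'.1 = p ^ 2 ∧ x ∈ A.1 ∧ x ∈ A'.1) : QuillenDim 𝕜 p G := by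
  have hp2 := hp.out.two_le
  have hz : ∀ x : G, x ≠ 1 → x ^ p = 1 → Nat.card (Subgroup.zpowers x) = p := by
    intro x hx hxp
    rw [Nat.card_zpowers]
    exact orderOf_eq_prime hxp hx
  have hApz : ∀ x : G, x ≠ 1 → x ^ p = 1 → Subgroup.zpowers x ≠ ⊥ ∧
      (∀ y ∈ Subgroup.zpowers x, ∀ y' ∈ Subgroup.zpowers x, y * y' = y' * y) ∧
      ∀ y ∈ Subgroup.zpowers x, y ^ p = 1 := by
    intro x hx hxp
    refine ⟨fun h => hx (Subgroup.zpowers_eq_bot.1 h), ?_, ?_⟩
    · rintro _ ⟨i, rfl⟩ _ ⟨j, rfl⟩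
      exact zpow_mul_comm x i j
    · rintro _ ⟨i, rfl⟩
      show (x ^ i) ^ p = 1
      rw [← zpow_natCast, ← zpow_mul, mul_comm, zpow_mul, zpow_natCast, hxp, one_zpow]
  -- a group of order `p` is generated by each nontrivial element
  have hgen : ∀ B : Ap p G, Nat.card B.1 = p → ∀ x ∈ B.1, x ≠ 1 → Subgroup.zpowers x = B.1 := by
    intro B hB x hx hx1
    apply Subgroup.eq_of_le_of_card_ge ((Subgroup.zpowers_le).2 hx)
    rw [hB, hz x hx1 (B.2.2.2 x hx)]
  have hex : ∀ B : Ap p G, ∃ x ∈ B.1, x ≠ 1 := by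
    intro B
    exact (Subgroup.ne_bot_iff_exists_ne_one.1 B.2.1).elim fun x hx =>
      ⟨x.1, x.2, fun h => hx (Subtype.ext h)⟩
  refine ⟨2, h1, poset_cycle (fun B : Ap p G => Nat.card B.1 = p)
    (fun A : Ap p G => Nat.card A.1 = p ^ 2) ?_ ?_ ?_⟩
  · intro B hB
    obtain ⟨x, hx, hx1⟩ := hex B
    obtain ⟨A, A', hne, hA, hA', hxA, hxA'⟩ := h2 x hx1 (B.2.2.2 x hx)
    have key : ∀ A : Ap p G, Nat.card A.1 = p ^ 2 → x ∈ A.1 → B < A := by
      intro A hA hxA
      have h3 : B ≤ A := by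
        show B.1 ≤ A.1
        rw [← hgen B hB x hx hx1]
        exact (Subgroup.zpowers_le).2 hxA
      refine lt_of_le_of_ne h3 ?_
      rintro rfl
      rw [hB] at hA
      nlinarith
    exact ⟨A, A', hne, ⟨hA, key A hA hxA⟩, hA', key A' hA' hxA'⟩
  · intro A hA
    obtain ⟨x, hx, hx1⟩ := hex A
    have hxp := A.2.2.2 x hx
    have hlt : Subgroup.zpowers x < A.1 := by
      refine lt_of_le_of_ne ((Subgroup.zpowers_le).2 hx) ?_
      intro h
      rw [← h, hz x hx1 hxp] at hA
      nlinarith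
    obtain ⟨y, hy, hyx⟩ := SetLike.exists_of_lt hlt
    have hy1 : y ≠ 1 := by
      rintro rfl
      exact hyx (one_mem _)
    have hyp := A.2.2.2 y hy
    have key : ∀ (w : G) (hw : w ∈ A.1) (hw1 : w ≠ 1),
        (⟨Subgroup.zpowers w, hApz w hw1 (A.2.2.2 w hw)⟩ : Ap p G) < A := by
      intro w hw hw1
      refine lt_of_le_of_ne ((Subgroup.zpowers_le).2 hw) ?_
      intro h
      have h3 : Subgroup.zpowers w = A.1 := congrArg Subtype.val h
      rw [← h3, hz w hw1 (A.2.2.2 w hw)] at hA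
      nlinarith
    refine ⟨⟨Subgroup.zpowers x, hApz x hx1 hxp⟩, ⟨Subgroup.zpowers y, hApz y hy1 hyp⟩, ?_,
      ⟨hz x hx1 hxp, key x hx hx1⟩, hz y hy1 hyp, key y hy hy1⟩
    intro h
    have h3 : Subgroup.zpowers x = Subgroup.zpowers y := congrArg Subtype.val h
    exact hyx (h3 ▸ Subgroup.mem_zpowers y)
  · obtain ⟨x, hx, hxp⟩ := h0
    exact ⟨⟨Subgroup.zpowers x, hApz x hx hxp⟩, hz x hx hxp⟩

end

end Vale.Agent.P240.R2.H979
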