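import Vale.Agent.P240.R2.H487.EDefs

/-!
Pull-back of top cycles.
-/

set_option linter.all false

namespace Vale.Agent.P240.R2.H979

open Finsupp hiding cons
open Subgroup Vale.Agent.P240.K Vale.Agent.P240.R2.H487

universe u v

section
variable {𝕜 : Type v} [Field 𝕜] {Q : Type*} [Group Q] {H : Type*} [Group H] {p : ℕ}

/-- the pull-back of subgroups to `M` -/
def pb (f : H →* Q) (M : Subgroup H) (K : Subgroup Q) : Subgroup H := K.comap f ⊓ M

lemma mem_pb {f : H →* Q} {M : Subgroup H} {K : Subgroup Q} {x : H} :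
    x ∈ pb f M K ↔ f x ∈ K ∧ x ∈ M := by
  rw [pb, mem_inf, mem_comap]

lemma pb_le {f : H →* Q} {M : Subgroup H} {K : Subgroup Q} : pb f M K ≤ M := inf_le_right

lemma map_pb {f : H →* Q} {M : Subgroup H} {K : Subgroup Q} (hK : K ≤ M.map f) :
    (pb f M K).map f = K := by
  refine le_antisymm ?_ fun x hx => ?_
  · rintro _ ⟨x, hx, rfl⟩
    exact (mem_pb.1 hx).1
  · obtain ⟨y, hy, rfl⟩ := hK hx
    exact ⟨y, mem_pb.2 ⟨hx, hy⟩, rfl⟩

lemma pb_inj {f : H →* Q} {M : Subgroup H} {A B : Subgroup Q} (hA : A ≤ M.map f)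
    (hB : B ≤ M.map f) (h : pb f M A = pb f M B) : A = B := by
  rw [← map_pb hA, ← map_pb hB, h]

lemma list_pb_inj {f : H →* Q} {M : Subgroup H} :
    ∀ {l m : List (Subgroup Q)}, (∀ K ∈ l, K ≤ M.map f) → (∀ K ∈ m, K ≤ M.map f) →
      l.map (pb f M) = m.map (pb f M) → l = m := by
  intro l
  induction l with
  | nil =>
    intro m _ _ h
    rcases m with _ | ⟨b, m⟩
    · rfl
    · simp at h
  | cons a l ih =>
    intro m hl hm h
    rcases m with _ | ⟨b, m⟩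
    · simp at h
    · rw [List.map_cons, List.map_cons, List.cons.injEq] at h
      rw [pb_inj (hl a List.mem_cons_self) (hm b List.mem_cons_self) h.1,
        ih (fun K hK => hl K (List.mem_cons_of_mem _ hK))
          (fun K hK => hm K (List.mem_cons_of_mem _ hK)) h.2]

lemma card_map_inj {M : Subgroup H} {f : H →* Q} (hf : ∀ x ∈ M, f x = 1 → x = 1)
    {A : Subgroup H} (hA : A ≤ M) : Nat.card (A.map f) = Nat.card A := by
  refine (Nat.card_eq_of_bijective (fun x : A => (⟨f x, x, x.2, rfl⟩ : A.map f)) ⟨?_, ?_⟩).symm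
  · intro x y hxy
    have h1 : f x = f y := congrArg Subtype.val hxy
    have h2 : f ((x : H) * (y : H)⁻¹) = 1 := by rw [map_mul, map_inv, h1, mul_inv_cancel]
    exact Subtype.ext (mul_inv_eq_one.1 (hf _ (mul_mem (hA x.2) (inv_mem (hA y.2))) h2))
  · rintro ⟨_, x, hx, rfl⟩
    exact ⟨⟨x, hx⟩, rfl⟩

/-- elementary abelian groups pull back -/
lemma pb_ApS {M : Subgroup H} {f : H →* Q} (hf : ∀ x ∈ M, f x = 1 → x = 1) {K : Subgroup Q}
    (hK : K ∈ ApS p Q) (hKM : K ≤ M.map f) : pb f M K ∈ ApS p H := by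
  obtain ⟨h1, h2, h3⟩ := hK
  refine ⟨fun h0 => h1 ?_, ?_, ?_⟩
  · rw [← map_pb hKM, h0, Subgroup.map_bot]
  · intro x hx y hy
    obtain ⟨hx1, hx2⟩ := mem_pb.1 hx
    obtain ⟨hy1, hy2⟩ := mem_pb.1 hy
    rw [← mul_inv_eq_one]
    refine hf _ (mul_mem (mul_mem hx2 hy2) (inv_mem (mul_mem hy2 hx2))) ?_
    rw [map_mul, map_inv, map_mul, map_mul, h2 _ hx1 _ hy1, mul_inv_cancel]
  · intro x hx
    obtain ⟨hx1, hx2⟩ := mem_pb.1 hx
    exact hf _ (pow_mem hx2 p) (by rw [map_pow, h3 _ hx1])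

/-- **Pull-back of top cycles.** -/
theorem topCycle_comap {M : Subgroup H} {E : Subgroup Q} {f : H →* Q}
    (hf : ∀ x ∈ M, f x = 1 → x = 1) {α : Ch 𝕜 (Subgroup Q)} {φ : List (Subgroup Q)}
    (h : TopCycle 𝕜 p (M.map f) E α φ) (hEM : E ≤ M.map f) :
    TopCycle 𝕜 p M (pb f M E) (mp (pb f M) α) (φ.map (pb f M)) := by
  have hlt : ∀ {A B : Subgroup Q}, A ≤ M.map f → B ≤ M.map f → A < B →
      pb f M A < pb f M B := by
    intro A B hA hB hAB
    refine lt_of_le_of_ne (inf_le_inf_right _ (comap_mono hAB.le)) fun h0 =>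
      hAB.ne (pb_inj hA hB h0)
  have hAp : ∀ K ∈ Ain p (M.map f), pb f M K ∈ Ain p M :=
    fun K hK => ⟨pb_ApS hf hK.1 hK.2, pb_le⟩
  have hφM : ∀ K ∈ φ, K ≤ M.map f := by
    have h1 := mem_Sp.1 h.mem φ (Finsupp.mem_support_iff.2 h.ne)
    exact fun K hK => (h1.1.2 K hK).2
  refine ⟨?_, ?_, ?_, ?_, ?_⟩
  · refine mp_mem (fun m hm => ⟨⟨?_, ?_⟩, by rw [List.length_map, List.length_map, hm.2]⟩) h.mem
    · rw [List.pairwise_map]
      have h1 := hm.1.2
      refine hm.1.1.imp_of_mem ?_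
      intro a b ha hb hab
      exact hlt (h1 b hb).2 (h1 a ha).2 hab
    · intro K hK
      obtain ⟨K', hK', rfl⟩ := List.mem_map.1 hK
      exact hAp K' (hm.1.2 K' hK')
  · rw [bd_mp, h.cyc, map_zero]
  · rw [mp, Finsupp.lmapDomain_apply]
    rw [Finsupp.mapDomain_apply' {l : List (Subgroup Q) | ∀ K ∈ l, K ≤ M.map f}]
    · exact h.ne
    · intro l hl
      have h1 := mem_Sp.1 h.mem l hl
      exact fun K hK => (h1.1.2 K hK).2
    · intro l hl m hm hlm
      exact list_pb_inj hl hm hlm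
    · exact hφM
  · rcases h.top with ⟨h1, h2⟩ | ⟨φ', h1⟩
    · refine Or.inl ⟨by rw [h1]; rfl, ?_⟩
      rw [eq_bot_iff]
      intro x hx
      obtain ⟨hx1, hx2⟩ := mem_pb.1 hx
      rw [h2, mem_bot] at hx1
      exact mem_bot.2 (hf x hx2 hx1)
    · exact Or.inr ⟨φ'.map (pb f M), by rw [h1]; rfl⟩
  · rw [← card_map_inj hf pb_le, map_pb hEM, List.length_map, h.card]

end

end Vale.Agent.P240.R2.H979
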